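import Vale.Agent.P064.Encode

/-!
# From the encoding to `SimpleGraph.copyCount`
-/

open Finset
open scoped Classical Nat

namespace Vale.Agent.P064

noncomputable section

variable {Q N : Type*} [Fintype Q] [Fintype N]

lemma geq_zero (R : RF Q) : geq R 0 = univ := by
  ext a; simp [geq]

lemma card_geq_one (R : RF Q) : (geq R 1).card = Fintype.card Q - (lvl R 0).card := by
  have := card_geq_eq R 0
  rw [geq_zero, Finset.card_univ, zero_add] at this
  omega

/-- The data attached to a labelled copy. -/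
def DD (R : RF Q) (g : Q → N) : Finset N × (N → Finset N) := (Lay R g 0, Kg R g 0)

lemma card_lay {R : RF Q} {g : Q → N} (hg : Function.Injective g) (h : ℕ) :
    (Lay R g h).card = (lvl R h).card := Finset.card_image_of_injective _ hg

/-- The count of the data. -/
lemma card_DD_le (R : RF Q) (hroot : ∀ a, R.p a = a → R.dp a = 0) (hn : 0 < Fintype.card N) :
    (((Gs Q N).image (DD R) : Finset (Finset N × (N → Finset N))).card : ℝ) *
        (((lvl R 0).card ! : ℕ) : ℝ) * (mgeq R 0 : ℝ) ≤
      4 ^ Fintype.card Q * (Fintype.card N : ℝ) ^ Fintype.card Q := by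
  set n := Fintype.card N with hndef
  set c := (lvl R 0).card with hc
  set v := Fintype.card Q with hv
  have hnR : (1 : ℝ) ≤ n := by exact_mod_cast hn
  have hcv : c ≤ v := Finset.card_le_univ _
  have hsub : (Gs Q N).image (DD R) ⊆ (Finset.powersetCard c (univ : Finset N)).biUnion
      (fun L => (EE R N 0 L).image (fun κ => (L, κ))) := by
    intro d hd
    obtain ⟨g, hg, rfl⟩ := Finset.mem_image.mp hd
    have hg' := mem_Gs.mp hg
    refine Finset.mem_biUnion.mpr ⟨Lay R g 0, ?_, ?_⟩
    · exact Finset.mem_powersetCard.mpr ⟨Finset.subset_univ _, card_lay hg' 0⟩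
    · refine Finset.mem_image.mpr ⟨Kg R g 0, ?_, rfl⟩
      exact Finset.mem_image.mpr ⟨g, Finset.mem_filter.mpr ⟨hg, rfl⟩, rfl⟩
  have hE : ∀ L : Finset N, ((EE R N 0 L).card : ℝ) * (mgeq R 0 : ℝ) ≤
      (2 * (n : ℝ)) ^ (v - c) * 2 ^ v := by
    intro L
    have := card_EE_le R hroot hn ((∑ a, R.dp a) + 1) 0 L (by omega)
    rw [card_geq_one, geq_zero, Finset.card_univ] at this
    exact this
  have hcard : (((Gs Q N).image (DD R) : Finset (Finset N × (N → Finset N))).card : ℝ) ≤
      ∑ L ∈ Finset.powersetCard c (univ : Finset N), ((EE R N 0 L).card : ℝ) := by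
    have h1 := (Finset.card_le_card hsub).trans Finset.card_biUnion_le
    have h2 : ∑ L ∈ Finset.powersetCard c (univ : Finset N),
        ((EE R N 0 L).image (fun κ => (L, κ))).card ≤
        ∑ L ∈ Finset.powersetCard c (univ : Finset N), (EE R N 0 L).card :=
      Finset.sum_le_sum (fun L _ => Finset.card_image_le)
    exact_mod_cast h1.trans h2
  have hm0 : (0 : ℝ) ≤ (mgeq R 0 : ℝ) := Nat.cast_nonneg _
  have hf0 : (0 : ℝ) ≤ ((c ! : ℕ) : ℝ) := Nat.cast_nonneg _
  have hchoose : ((n.choose c : ℕ) : ℝ) * ((c ! : ℕ) : ℝ) ≤ (n : ℝ) ^ c := by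
    have := Nat.descFactorial_eq_factorial_mul_choose n c
    have h4 : c ! * n.choose c ≤ n ^ c := by
      rw [← this]; exact Nat.descFactorial_le_pow n c
    have h5 : ((c ! * n.choose c : ℕ) : ℝ) ≤ ((n ^ c : ℕ) : ℝ) := by exact_mod_cast h4
    push_cast at h5
    linarith
  calc _ = (((Gs Q N).image (DD R) : Finset (Finset N × (N → Finset N))).card : ℝ) *
        (mgeq R 0 : ℝ) * ((c ! : ℕ) : ℝ) := by ring
    _ ≤ (∑ L ∈ Finset.powersetCard c (univ : Finset N), ((EE R N 0 L).card : ℝ)) *
        (mgeq R 0 : ℝ) * ((c ! : ℕ) : ℝ) := by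
        apply mul_le_mul_of_nonneg_right _ hf0
        exact mul_le_mul_of_nonneg_right hcard hm0
    _ = (∑ L ∈ Finset.powersetCard c (univ : Finset N), ((EE R N 0 L).card : ℝ) * (mgeq R 0 : ℝ)) *
        ((c ! : ℕ) : ℝ) := by rw [Finset.sum_mul]
    _ ≤ (∑ _L ∈ Finset.powersetCard c (univ : Finset N), (2 * (n : ℝ)) ^ (v - c) * 2 ^ v) *
        ((c ! : ℕ) : ℝ) := by
        apply mul_le_mul_of_nonneg_right _ hf0
        exact Finset.sum_le_sum (fun L _ => hE L)
    _ = ((n.choose c : ℕ) : ℝ) * ((c ! : ℕ) : ℝ) * ((2 * (n : ℝ)) ^ (v - c) * 2 ^ v) := by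
        rw [Finset.sum_const, Finset.card_powersetCard, Finset.card_univ, nsmul_eq_mul]
        ring
    _ ≤ (n : ℝ) ^ c * ((2 * (n : ℝ)) ^ (v - c) * 2 ^ v) :=
        mul_le_mul_of_nonneg_right hchoose (by positivity)
    _ = 2 ^ (v - c) * 2 ^ v * (n : ℝ) ^ v := by
        have : (n : ℝ) ^ v = (n : ℝ) ^ c * (n : ℝ) ^ (v - c) := by
          rw [← pow_add]; congr 1; omega
        rw [this, mul_pow]; ring
    _ ≤ 2 ^ v * 2 ^ v * (n : ℝ) ^ v := by
        apply mul_le_mul_of_nonneg_right _ (by positivity)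
        apply mul_le_mul_of_nonneg_right _ (by positivity)
        exact pow_le_pow_right₀ (by norm_num) (by omega)
    _ = 4 ^ v * (n : ℝ) ^ v := by
        rw [← mul_pow]; norm_num

section copies

variable {F : SimpleGraph Q}

/-- A subgraph of the complete graph is determined by the data of a copy. -/
lemma toSubgraph_eq_of_DD {R : RF Q} (hroot : ∀ a, R.p a = a → R.dp a = 0)
    (hadj : ∀ a b, F.Adj a b ↔ a ≠ b ∧ (R.p a = b ∨ R.p b = a))
    {G : SimpleGraph N} {f f' : SimpleGraph.Copy F G}
    (h : DD R f = DD R f') : f.toSubgraph = f'.toSubgraph := by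
  obtain ⟨h1, h2⟩ := Prod.mk.inj h
  have hverts : ∀ {f : SimpleGraph.Copy F G} {s : N}, s ∈ f.toSubgraph.verts ↔
      s ∈ Lay R f 0 ∨ ∃ t, s ∈ Kg R f 0 t := by
    intro f s
    simp only [SimpleGraph.Subgraph.map_verts, SimpleGraph.Subgraph.verts_top, Set.image_univ,
      Set.mem_range]
    constructor
    · rintro ⟨a, rfl⟩
      by_cases ha : R.dp a = 0
      · exact Or.inl (mem_Lay.mpr ⟨a, ha, rfl⟩)
      · right
        have hne : R.p a ≠ a := fun hfix => ha (hroot a hfix)
        refine ⟨f (R.p a), Finset.mem_image.mpr ⟨a, ?_, rfl⟩⟩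
        simp [hne]
    · rintro (hs | ⟨t, hs⟩)
      · obtain ⟨a, _, rfl⟩ := mem_Lay.mp hs
        exact ⟨a, rfl⟩
      · obtain ⟨a, _, rfl⟩ := Finset.mem_image.mp hs
        exact ⟨a, rfl⟩
  have hadjS : ∀ {f : SimpleGraph.Copy F G} {s t : N}, f.toSubgraph.Adj s t ↔
      s ∈ Kg R f 0 t ∨ t ∈ Kg R f 0 s := by
    intro f s t
    simp only [SimpleGraph.Subgraph.map_adj, SimpleGraph.Subgraph.top_adj, Relation.map_apply]
    constructor
    · rintro ⟨a, b, hab, rfl, rfl⟩
      obtain ⟨hne, hp | hp⟩ := (hadj a b).mp hab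
      · left
        have hne' : R.p a ≠ a := by rw [hp]; exact fun h => hne h.symm
        exact Finset.mem_image.mpr ⟨a, Finset.mem_filter.mpr
          ⟨Finset.mem_univ _, hne', by rw [hp]; rfl, Nat.zero_le _⟩, rfl⟩
      · right
        have hne' : R.p b ≠ b := by rw [hp]; exact hne
        exact Finset.mem_image.mpr ⟨b, Finset.mem_filter.mpr
          ⟨Finset.mem_univ _, hne', by rw [hp]; rfl, Nat.zero_le _⟩, rfl⟩
    · rintro (hs | hs)
      · obtain ⟨b, hb, rfl⟩ := Finset.mem_image.mp hs
        obtain ⟨hb1, hb2, _⟩ := (Finset.mem_filter.mp hb).2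
        exact ⟨b, R.p b, (hadj _ _).mpr ⟨fun h => hb1 h.symm, Or.inl rfl⟩, rfl, hb2⟩
      · obtain ⟨b, hb, rfl⟩ := Finset.mem_image.mp hs
        obtain ⟨hb1, hb2, _⟩ := (Finset.mem_filter.mp hb).2
        exact ⟨R.p b, b, (hadj _ _).mpr ⟨hb1, Or.inr rfl⟩, hb2, rfl⟩
  apply SimpleGraph.Subgraph.ext
  · ext s
    rw [hverts, hverts, h1, h2]
  · funext s t
    apply propext
    rw [hadjS, hadjS, h2]

lemma copyCount_le_card_DD {R : RF Q} (hroot : ∀ a, R.p a = a → R.dp a = 0)
    (hadj : ∀ a b, F.Adj a b ↔ a ≠ b ∧ (R.p a = b ∨ R.p b = a)) (G : SimpleGraph N) :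
    G.copyCount F ≤ ((Gs Q N).image (DD R) : Finset (Finset N × (N → Finset N))).card := by
  unfold SimpleGraph.copyCount
  have hex : ∀ G' : G.Subgraph, Nonempty (F ≃g G'.coe) →
      ∃ f : SimpleGraph.Copy F G, f.toSubgraph = G' := by
    intro G' hG'
    have : G' ∈ Set.range (SimpleGraph.Copy.toSubgraph (A := F) (B := G)) := by
      rw [SimpleGraph.Copy.range_toSubgraph]
      exact hG'
    exact this
  let pick : G.Subgraph → Finset N × (N → Finset N) := fun G' =>
    if h : Nonempty (F ≃g G'.coe) then DD R (hex G' h).choose else (∅, fun _ => ∅)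
  apply Finset.card_le_card_of_injOn pick
  · intro G' hG'
    have hG'2 : Nonempty (F ≃g G'.coe) := (Finset.mem_filter.mp (Finset.mem_coe.mp hG')).2
    simp only [pick, hG'2, dite_true]
    refine Finset.mem_coe.mpr (Finset.mem_image.mpr ⟨_, mem_Gs.mpr ?_, rfl⟩)
    exact (hex G' hG'2).choose.injective
  · intro G₁ h₁ G₂ h₂ hpick
    have h₁' : Nonempty (F ≃g G₁.coe) := (Finset.mem_filter.mp (Finset.mem_coe.mp h₁)).2
    have h₂' : Nonempty (F ≃g G₂.coe) := (Finset.mem_filter.mp (Finset.mem_coe.mp h₂)).2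
    simp only [pick, h₁', h₂', dite_true] at hpick
    have := toSubgraph_eq_of_DD hroot hadj hpick
    rw [(hex G₁ h₁').choose_spec, (hex G₂ h₂').choose_spec] at this
    exact this

/-- **Upper bound on the number of copies of a rooted forest.** -/
theorem copyCount_le (R : RF Q) (hroot : ∀ a, R.p a = a → R.dp a = 0)
    (hadj : ∀ a b, F.Adj a b ↔ a ≠ b ∧ (R.p a = b ∨ R.p b = a)) (hn : 0 < Fintype.card N)
    (G : SimpleGraph N) :
    (G.copyCount F : ℝ) * (((lvl R 0).card ! : ℕ) : ℝ) * ∏ a, (((ch R a).card)! : ℝ) ≤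
      4 ^ Fintype.card Q * (Fintype.card N : ℝ) ^ Fintype.card Q := by
  have h1 := card_DD_le R hroot hn
  have h2 : (G.copyCount F : ℝ) ≤
      (((Gs Q N).image (DD R) : Finset (Finset N × (N → Finset N))).card : ℝ) := by
    exact_mod_cast copyCount_le_card_DD hroot hadj G
  have h3 : (mgeq R 0 : ℝ) = ∏ a, (((ch R a).card)! : ℝ) := by
    unfold mgeq
    rw [geq_zero]
    push_cast
    rfl
  rw [h3] at h1
  refine le_trans ?_ h1
  apply mul_le_mul_of_nonneg_right _ (Finset.prod_nonneg (fun _ _ => Nat.cast_nonneg _))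
  exact mul_le_mul_of_nonneg_right h2 (Nat.cast_nonneg _)

/-- Number of edges of a rooted forest. -/
lemma edgeSet_ncard (R : RF Q) (hadj : ∀ a b, F.Adj a b ↔ a ≠ b ∧ (R.p a = b ∨ R.p b = a)) :
    F.edgeSet.ncard = (nonroots R).card := by
  have himg : F.edgeSet = (fun b => s(b, R.p b)) '' ((nonroots R : Finset Q) : Set Q) := by
    ext e
    induction e using Sym2.ind with
    | _ a b =>
      rw [SimpleGraph.mem_edgeSet, hadj]
      simp only [Set.mem_image, Finset.mem_coe]
      constructor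
      · rintro ⟨hne, hp | hp⟩
        · refine ⟨a, ?_, by rw [hp]⟩
          simp only [nonroots, Finset.mem_filter, Finset.mem_univ, true_and]
          rw [hp]; exact fun h => hne h.symm
        · refine ⟨b, ?_, by rw [hp]; exact Sym2.eq_swap⟩
          simp only [nonroots, Finset.mem_filter, Finset.mem_univ, true_and]
          rw [hp]; exact hne
      · rintro ⟨c, hc, hs⟩
        have hc' : R.p c ≠ c := by simpa [nonroots] using hc
        rcases Sym2.eq_iff.mp hs with ⟨rfl, rfl⟩ | ⟨rfl, rfl⟩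
        · exact ⟨fun h => hc' h.symm, Or.inl rfl⟩
        · exact ⟨hc', Or.inr rfl⟩
  rw [himg, Set.InjOn.ncard_image, Set.ncard_coe_finset]
  intro b hb b' hb' hs
  have hb1 : R.p b ≠ b := by simpa [nonroots] using hb
  have hb2 : R.p b' ≠ b' := by simpa [nonroots] using hb'
  rcases Sym2.eq_iff.mp hs with ⟨rfl, _⟩ | ⟨h1, h2⟩
  · rfl
  · exfalso
    have h3 := R.dp_of_ne hb1
    have h4 := R.dp_of_ne hb2
    rw [h2] at h3
    rw [← h1] at h4
    omega

end copies

/-! ### Labelled copies versus copies -/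

section labelled

variable {V W : Type*} [Fintype V] [Fintype W]

instance finite_copy (G : SimpleGraph V) (F : SimpleGraph W) : Finite (SimpleGraph.Copy F G) :=
  Finite.of_injective (fun f => (f : W → V)) DFunLike.coe_injective

instance finite_aut (F : SimpleGraph W) : Finite (F ≃g F) :=
  Finite.of_injective (fun σ => (σ : W → W)) DFunLike.coe_injective

/-- Precomposition with an automorphism does not change the subgraph. -/
lemma toSubgraph_comp {G : SimpleGraph V} {F : SimpleGraph W} (f : SimpleGraph.Copy F G)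
    (σ : F ≃g F) : (f.comp σ.toCopy).toSubgraph = f.toSubgraph := by
  apply SimpleGraph.Subgraph.ext
  · ext s
    simp only [SimpleGraph.Subgraph.map_verts, SimpleGraph.Subgraph.verts_top, Set.image_univ,
      Set.mem_range]
    constructor
    · rintro ⟨a, rfl⟩
      exact ⟨σ a, rfl⟩
    · rintro ⟨a, rfl⟩
      refine ⟨σ.symm a, ?_⟩
      change f (σ (σ.symm a)) = f a
      rw [σ.apply_symm_apply]
  · funext s t
    apply propext
    simp only [SimpleGraph.Subgraph.map_adj, SimpleGraph.Subgraph.top_adj, Relation.map_apply]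
    constructor
    · rintro ⟨a, b, hab, rfl, rfl⟩
      exact ⟨σ a, σ b, σ.map_rel_iff.mpr hab, rfl, rfl⟩
    · rintro ⟨a, b, hab, rfl, rfl⟩
      refine ⟨σ.symm a, σ.symm b, σ.symm.map_rel_iff.mpr hab, ?_, ?_⟩
      · change f (σ (σ.symm a)) = f a
        rw [σ.apply_symm_apply]
      · change f (σ (σ.symm b)) = f b
        rw [σ.apply_symm_apply]

/-- Two copies with the same subgraph differ by an automorphism. -/
lemma exists_aut_of_toSubgraph_eq {G : SimpleGraph V} {F : SimpleGraph W}
    {f f₀ : SimpleGraph.Copy F G} (h : f.toSubgraph = f₀.toSubgraph) :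
    ∃ σ : F ≃g F, f₀.comp σ.toCopy = f := by
  have hmem : ∀ a, ∃ b, f₀ b = f a := by
    intro a
    have h1 : f a ∈ f.toSubgraph.verts := by
      simp
    rw [h] at h1
    simpa using h1
  choose τ hτ using hmem
  have hinj : Function.Injective τ := by
    intro a b hab
    apply f.injective
    change f a = f b
    rw [← hτ a, ← hτ b, hab]
  have hbij : Function.Bijective τ := Finite.injective_iff_bijective.mp hinj
  refine ⟨⟨Equiv.ofBijective τ hbij, ?_⟩, ?_⟩
  · intro a b
    simp only [Equiv.ofBijective_apply]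
    constructor
    · intro hab
      have h1 : f₀.toSubgraph.Adj (f₀ (τ a)) (f₀ (τ b)) := by
        simp only [SimpleGraph.Subgraph.map_adj, SimpleGraph.Subgraph.top_adj, Relation.map_apply]
        exact ⟨τ a, τ b, hab, rfl, rfl⟩
      rw [← h, hτ, hτ] at h1
      simp only [SimpleGraph.Subgraph.map_adj, SimpleGraph.Subgraph.top_adj,
        Relation.map_apply] at h1
      obtain ⟨a', b', hab', h2, h3⟩ := h1
      have h4 : a' = a := f.injective h2
      have h5 : b' = b := f.injective h3
      rwa [← h4, ← h5]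
    · intro hab
      have h1 : f.toSubgraph.Adj (f a) (f b) := by
        simp only [SimpleGraph.Subgraph.map_adj, SimpleGraph.Subgraph.top_adj, Relation.map_apply]
        exact ⟨a, b, hab, rfl, rfl⟩
      rw [h, ← hτ, ← hτ] at h1
      simp only [SimpleGraph.Subgraph.map_adj, SimpleGraph.Subgraph.top_adj,
        Relation.map_apply] at h1
      obtain ⟨a', b', hab', h2, h3⟩ := h1
      have h4 : a' = τ a := f₀.injective h2
      have h5 : b' = τ b := f₀.injective h3
      rwa [← h4, ← h5]
  · ext a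
    exact hτ a

lemma labelled_eq_natCard (G : SimpleGraph V) (F : SimpleGraph W) :
    G.labelledCopyCount F = Nat.card (SimpleGraph.Copy F G) := by
  classical
  unfold SimpleGraph.labelledCopyCount
  exact (Nat.card_eq_fintype_card).symm

/-- Labelled copies are copies times automorphisms. -/
theorem labelled_eq (G : SimpleGraph V) (F : SimpleGraph W) :
    G.labelledCopyCount F = G.copyCount F * Nat.card (F ≃g F) := by
  classical
  let _ : Fintype (SimpleGraph.Copy F G) := Fintype.ofFinite _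
  have h1 : G.labelledCopyCount F = (univ : Finset (SimpleGraph.Copy F G)).card := by
    rw [Finset.card_univ, ← Nat.card_eq_fintype_card]
    exact labelled_eq_natCard G F
  have h2 : G.copyCount F = ((univ : Finset (SimpleGraph.Copy F G)).image
      SimpleGraph.Copy.toSubgraph).card := by
    unfold SimpleGraph.copyCount
    congr 1
    ext G'
    simp only [Finset.mem_filter, Finset.mem_univ, true_and, Finset.mem_image]
    have : G' ∈ Set.range (SimpleGraph.Copy.toSubgraph (A := F) (B := G)) ↔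
        Nonempty (F ≃g G'.coe) := by
      rw [SimpleGraph.Copy.range_toSubgraph]; rfl
    rw [← this]
    rfl
  rw [h1, h2, Finset.card_eq_sum_card_image (SimpleGraph.Copy.toSubgraph (A := F) (B := G))]
  rw [Finset.sum_congr rfl (g := fun _ => Nat.card (F ≃g F))]
  · rw [Finset.sum_const, smul_eq_mul]
  · intro G' hG'
    obtain ⟨f₀, _, rfl⟩ := Finset.mem_image.mp hG'
    rw [← Fintype.card_subtype, ← Nat.card_eq_fintype_card]
    refine (Nat.card_congr (Equiv.ofBijective
      (fun σ : F ≃g F => (⟨f₀.comp σ.toCopy, toSubgraph_comp f₀ σ⟩ :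
        {f : SimpleGraph.Copy F G // f.toSubgraph = f₀.toSubgraph})) ⟨?_, ?_⟩)).symm
    · intro σ σ' h
      have h3 : f₀.comp σ.toCopy = f₀.comp σ'.toCopy := congrArg Subtype.val h
      ext a
      apply f₀.injective
      have := DFunLike.congr_fun h3 a
      exact this
    · rintro ⟨f, hf⟩
      obtain ⟨σ, hσ⟩ := exists_aut_of_toSubgraph_eq hf
      exact ⟨σ, Subtype.ext hσ⟩

end labelled

end

end Vale.Agent.P064
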