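import Vale.Agent.P064.RF

/-!
# The total potential is linear in `n`
-/

open Finset
open scoped Classical Nat

namespace Vale.Agent.P064

noncomputable section

variable {V : Type*} [Fintype V]

/-- The consequence of the hypothesis of the theorem on disjoint unions of pieces. -/
def Hyp (R : RF V) (n : ℕ) (q : ℝ) : Prop :=
  ∀ (d : ℕ) (X : Finset V) (S : V → Finset V), (∀ x ∈ X, IsPiece R d x (S x)) →
    (X : Set V).PairwiseDisjoint S → (∀ x ∈ X, 2 ≤ (S x).card) →
    ((X.card ! : ℕ) : ℝ) * ∏ x ∈ X, (mu R (S x) : ℝ) ≤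
      2 * 4 ^ (∑ x ∈ X, (S x).card) * (n : ℝ) ^ (∑ x ∈ X, (S x).card) *
        q ^ (∑ x ∈ X, ((S x).card - 1))

lemma mu_pos (R : RF V) (S : Finset V) : 0 < mu R S :=
  Finset.prod_pos (fun _ _ => Nat.factorial_pos _)

lemma sum_cc_le {R : RF V} {d : ℕ} {x : V} {S : Finset V} (hS : IsPiece R d x S) :
    ∑ z ∈ S, cc R S z ≤ S.card - 1 := by
  set T' := S.filter (fun y => R.p y ∈ S ∧ R.p y ≠ y) with hT'
  have h1 : T'.card = ∑ z ∈ S, (T'.filter (fun y => R.p y = z)).card :=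
    Finset.card_eq_sum_card_fiberwise (fun y hy => (Finset.mem_filter.mp hy).2.1)
  have h2 : ∀ z ∈ S, (T'.filter (fun y => R.p y = z)).card = cc R S z := by
    intro z hz
    unfold cc
    congr 1
    ext y
    simp only [hT', Finset.mem_filter]
    constructor
    · rintro ⟨⟨h1, _, h3⟩, h4⟩
      exact ⟨h1, h4, fun h => h3 (by rw [h4, h])⟩
    · rintro ⟨h1, h2, h3⟩
      exact ⟨⟨h1, by rw [h2]; exact hz, by rw [h2]; exact fun h => h3 h.symm⟩, h2⟩
  rw [← Finset.sum_congr rfl h2, ← h1]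
  have h3 : T' ⊆ S.erase x := by
    intro y hy
    obtain ⟨h4, h5, h6⟩ := Finset.mem_filter.mp hy
    refine Finset.mem_erase.mpr ⟨?_, h4⟩
    rintro rfl
    have h7 := piece_depth_ge hS h5
    have h8 := R.dp_of_ne h6
    omega
  have := Finset.card_le_card h3
  rwa [Finset.card_erase_of_mem hS.1] at this

lemma mu_le_factorial {R : RF V} {d : ℕ} {x : V} {S : Finset V} (hS : IsPiece R d x S) :
    mu R S ≤ (S.card - 1)! := by
  have h1 : mu R S ∣ (∑ z ∈ S, cc R S z)! := Nat.prod_factorial_dvd_factorial_sum S (cc R S)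
  calc mu R S ≤ (∑ z ∈ S, cc R S z)! := Nat.le_of_dvd (Nat.factorial_pos _) h1
    _ ≤ (S.card - 1)! := Nat.factorial_le (sum_cc_le hS)

lemma log_mu_le {R : RF V} {d : ℕ} {x : V} {S : Finset V} (hS : IsPiece R d x S) :
    Nat.log 2 (mu R S) ≤ (S.card - 1) ^ 2 := by
  set ε := S.card - 1 with hε
  have h1 : mu R S ≤ 2 ^ (ε ^ 2) := by
    calc mu R S ≤ ε ! := mu_le_factorial hS
      _ ≤ ε ^ ε := Nat.factorial_le_pow ε
      _ ≤ (2 ^ ε) ^ ε := Nat.pow_le_pow_left (Nat.lt_two_pow_self).le _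
      _ = 2 ^ (ε ^ 2) := by rw [← pow_mul, sq]
  calc Nat.log 2 (mu R S) ≤ Nat.log 2 (2 ^ (ε ^ 2)) := Nat.log_mono_right h1
    _ = ε ^ 2 := Nat.log_pow (by norm_num) _

/-- Bound for one class. -/
lemma class_bound {R : RF V} {n : ℕ} {q : ℝ} (hyp : Hyp R n q) (hn : 1 ≤ n) (hq : 0 < q) {d : ℕ}
    {X : Finset V} {S : V → Finset V} (hS : ∀ x ∈ X, IsPiece R d x (S x))
    (hdis : (X : Set V).PairwiseDisjoint S) {ε j : ℕ} (hε : 1 ≤ ε)
    (hcard : ∀ x ∈ X, (S x).card = ε + 1) (hlog : ∀ x ∈ X, Nat.log 2 (mu R (S x)) = j) :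
    ∑ x ∈ X, (mu R (S x) : ℝ) * ((8 * n * q)⁻¹) ^ ε ≤ 48 * n * (1 / 2) ^ ε := by
  have hnR : (1 : ℝ) ≤ n := by exact_mod_cast hn
  have hn0 : (0 : ℝ) < n := by linarith
  by_cases hr : X.card = 0
  · rw [Finset.card_eq_zero.mp hr]
    simp only [Finset.sum_empty]
    positivity
  set r := X.card with hrdef
  have hh := hyp d X S hS hdis (fun x hx => by rw [hcard x hx]; omega)
  have hsum1 : ∑ x ∈ X, (S x).card = r * (ε + 1) := by
    rw [Finset.sum_congr rfl hcard, Finset.sum_const, smul_eq_mul]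
  have hsum2 : ∑ x ∈ X, ((S x).card - 1) = r * ε := by
    rw [Finset.sum_congr rfl (fun x hx => by rw [hcard x hx, Nat.add_sub_cancel]), Finset.sum_const,
      smul_eq_mul]
  rw [hsum1, hsum2] at hh
  set Z : ℝ := 4 ^ (ε + 1) * (n : ℝ) ^ (ε + 1) * q ^ ε with hZ
  have hZ0 : 0 < Z := by positivity
  have hlow : ((2 : ℝ) ^ j) ^ r ≤ ∏ x ∈ X, (mu R (S x) : ℝ) := by
    rw [hrdef, ← Finset.prod_const]
    apply Finset.prod_le_prod
    · intro _ _; positivity
    · intro x hx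
      have h1 : 2 ^ j ≤ mu R (S x) := by
        rw [← hlog x hx]
        exact Nat.pow_log_le_self 2 (mu_pos R (S x)).ne'
      exact_mod_cast h1
  have hfact := factorial_ge r
  have h1 : ((r : ℝ) / 3 * 2 ^ j) ^ r ≤ (2 * Z) ^ r := by
    have h2 : ((r : ℝ) / 3 * 2 ^ j) ^ r ≤ ((r ! : ℕ) : ℝ) * ∏ x ∈ X, (mu R (S x) : ℝ) := by
      rw [mul_pow]
      exact mul_le_mul hfact hlow (by positivity) (by positivity)
    have h3 : (2 : ℝ) * 4 ^ (r * (ε + 1)) * (n : ℝ) ^ (r * (ε + 1)) * q ^ (r * ε) = 2 * Z ^ r := by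
      rw [hZ, mul_pow, mul_pow, ← pow_mul, ← pow_mul, ← pow_mul]
      ring_nf
    have h4 : 2 * Z ^ r ≤ (2 * Z) ^ r := by
      have h5 : (2 : ℝ) ≤ 2 ^ r := by
        calc (2 : ℝ) = 2 ^ 1 := by norm_num
          _ ≤ 2 ^ r := pow_le_pow_right₀ (by norm_num) (Nat.one_le_iff_ne_zero.mpr hr)
      calc 2 * Z ^ r ≤ 2 ^ r * Z ^ r := mul_le_mul_of_nonneg_right h5 (by positivity)
        _ = (2 * Z) ^ r := (mul_pow _ _ _).symm
    linarith [h2, hh, h3, h4]
  have h2 : (r : ℝ) / 3 * 2 ^ j ≤ 2 * Z :=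
    (pow_le_pow_iff_left₀ (by positivity) (by positivity) hr).mp h1
  have hW : 0 < ((8 * n * q)⁻¹) ^ ε := by positivity
  have h3 : ∑ x ∈ X, (mu R (S x) : ℝ) * ((8 * n * q)⁻¹) ^ ε ≤
      r * (2 ^ (j + 1) * ((8 * n * q)⁻¹) ^ ε) := by
    have : ∀ x ∈ X, (mu R (S x) : ℝ) * ((8 * n * q)⁻¹) ^ ε ≤ 2 ^ (j + 1) * ((8 * n * q)⁻¹) ^ ε := by
      intro x hx
      apply mul_le_mul_of_nonneg_right _ hW.le
      have h4 : mu R (S x) < 2 ^ (j + 1) := by
        rw [← hlog x hx]
        exact Nat.lt_pow_succ_log_self (by norm_num) _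
      exact_mod_cast h4.le
    calc _ ≤ ∑ _x ∈ X, 2 ^ (j + 1) * ((8 * n * q)⁻¹) ^ ε := Finset.sum_le_sum this
      _ = _ := by rw [Finset.sum_const, nsmul_eq_mul]
  refine h3.trans ?_
  have h5 : (r : ℝ) * 2 ^ j ≤ 6 * Z := by linarith
  have h6 : Z * ((8 * n * q)⁻¹) ^ ε = 4 * n * (1 / 2) ^ ε := by
    rw [hZ, pow_succ, pow_succ, inv_pow]
    have h7 : (8 * (n : ℝ) * q) ^ ε = 8 ^ ε * (n : ℝ) ^ ε * q ^ ε := by
      rw [mul_pow, mul_pow]
    have h8 : (1 / 2 : ℝ) ^ ε = 4 ^ ε * (8 ^ ε)⁻¹ := by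
      rw [← inv_pow, ← mul_pow]; norm_num
    rw [h7, h8]
    field_simp
  calc (r : ℝ) * (2 ^ (j + 1) * ((8 * n * q)⁻¹) ^ ε)
      = 2 * ((r : ℝ) * 2 ^ j) * ((8 * n * q)⁻¹) ^ ε := by rw [pow_succ]; ring
    _ ≤ 2 * (6 * Z) * ((8 * n * q)⁻¹) ^ ε := by
        apply mul_le_mul_of_nonneg_right _ hW.le
        linarith
    _ = 12 * (Z * ((8 * n * q)⁻¹) ^ ε) := by ring
    _ = 48 * n * (1 / 2) ^ ε := by rw [h6]; ring

lemma sum_series (E : ℕ) :
    ∑ ε ∈ Finset.range (E + 1), (((ε : ℝ) ^ 2 + 1) * (1 / 2) ^ ε) =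
      8 - ((E : ℝ) ^ 2 + 4 * E + 7) * (1 / 2) ^ E := by
  induction E with
  | zero => simp; norm_num
  | succ E ih =>
    rw [Finset.sum_range_succ, ih]
    push_cast
    rw [pow_succ]
    ring

lemma sum_series_le (E : ℕ) :
    ∑ ε ∈ Finset.range (E + 1), (((ε : ℝ) ^ 2 + 1) * (1 / 2) ^ ε) ≤ 8 := by
  rw [sum_series]
  have : 0 ≤ ((E : ℝ) ^ 2 + 4 * E + 7) * (1 / 2) ^ E := by positivity
  linarith

/-- The sum of the potential over a family with disjoint pieces. -/
lemma layer_bound {R : RF V} {n : ℕ} {q : ℝ} (hyp : Hyp R n q) (hn : 1 ≤ n)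
    (hV : Fintype.card V ≤ n) (hq : 0 < q) (d : ℕ) (X : Finset V)
    (hdisj : ∀ x ∈ X, ∀ x' ∈ X, x ≠ x' → ∀ S S', IsPiece R d x S → IsPiece R d x' S' →
      Disjoint S S') :
    ∑ x ∈ X, A R (8 * n * q) d x ≤ 385 * n := by
  have hnR : (1 : ℝ) ≤ n := by exact_mod_cast hn
  have hn0 : (0 : ℝ) < n := by linarith
  set W : ℝ := 8 * n * q with hWdef
  choose S hS hAS using A_attained R W d
  have hdis : (X : Set V).PairwiseDisjoint S := by
    intro x hx x' hx' hne
    exact hdisj x hx x' hx' hne _ _ (hS x) (hS x')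
  set E := Fintype.card V with hE
  set ef : V → ℕ := fun x => (S x).card - 1 with hef
  have hef_le : ∀ x ∈ X, ef x ∈ Finset.range (E + 1) := by
    intro x _
    have : (S x).card ≤ E := Finset.card_le_univ _
    exact Finset.mem_range.mpr (by simp only [hef]; omega)
  have hcardS : ∀ x, (S x).card = ef x + 1 := by
    intro x
    have : 0 < (S x).card := Finset.card_pos.mpr ⟨x, (hS x).1⟩
    simp only [hef]; omega
  rw [← Finset.sum_fiberwise_of_maps_to hef_le]
  have hclass : ∀ ε ∈ Finset.range (E + 1),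
      ∑ x ∈ X with ef x = ε, A R W d x ≤
        (if ε = 0 then (n : ℝ) else 0) + 48 * n * (((ε : ℝ) ^ 2 + 1) * (1 / 2) ^ ε) := by
    intro ε _
    by_cases hε : ε = 0
    · subst hε
      simp only [if_true]
      have h1 : ∀ x ∈ X.filter (fun x => ef x = 0), A R W d x = 1 := by
        intro x hx
        have hx0 := (Finset.mem_filter.mp hx).2
        have hc : (S x).card = 1 := by rw [hcardS, hx0]
        obtain ⟨y, hy⟩ := Finset.card_eq_one.mp hc
        have hxy : S x = {x} := by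
          have hxm := (hS x).1
          rw [hy] at hxm ⊢
          rw [Finset.mem_singleton.mp hxm]
        rw [hAS, hxy, wt_singleton]
      rw [Finset.sum_congr rfl h1]
      simp only [Finset.sum_const, nsmul_eq_mul, mul_one]
      have h2 : ((X.filter (fun x => ef x = 0)).card : ℝ) ≤ n := by
        have : (X.filter (fun x => ef x = 0)).card ≤ n :=
          (Finset.card_le_univ _).trans hV
        exact_mod_cast this
      have h3 : (0 : ℝ) ≤ 48 * n * (((0 : ℕ) : ℝ) ^ 2 + 1) * (1 / 2) ^ 0 := by positivity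
      simp only [Nat.cast_zero, pow_zero] at h3 ⊢
      nlinarith
    · simp only [hε, if_false, zero_add]
      have hlogmem : ∀ x ∈ X.filter (fun x => ef x = ε),
          Nat.log 2 (mu R (S x)) ∈ Finset.range (ε ^ 2 + 1) := by
        intro x hx
        have hx0 := (Finset.mem_filter.mp hx).2
        have := log_mu_le (hS x)
        have h2 : (S x).card - 1 = ε := hx0
        rw [h2] at this
        exact Finset.mem_range.mpr (by omega)
      rw [← Finset.sum_fiberwise_of_maps_to hlogmem]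
      have hinner : ∀ j ∈ Finset.range (ε ^ 2 + 1),
          ∑ x ∈ (X.filter (fun x => ef x = ε)) with Nat.log 2 (mu R (S x)) = j, A R W d x ≤
            48 * n * (1 / 2) ^ ε := by
        intro j _
        set Y := (X.filter (fun x => ef x = ε)).filter (fun x => Nat.log 2 (mu R (S x)) = j) with hY
        have hYsub : Y ⊆ X := (Finset.filter_subset _ _).trans (Finset.filter_subset _ _)
        have hYc : ∀ x ∈ Y, (S x).card = ε + 1 := by
          intro x hx
          have := (Finset.mem_filter.mp (Finset.mem_filter.mp hx).1).2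
          rw [hcardS, this]
        have hYl : ∀ x ∈ Y, Nat.log 2 (mu R (S x)) = j := fun x hx => (Finset.mem_filter.mp hx).2
        have hb := class_bound hyp hn hq (X := Y) (S := S) (fun x _ => hS x)
          (hdis.subset (by exact_mod_cast hYsub)) (Nat.one_le_iff_ne_zero.mpr hε) hYc hYl
        refine le_trans (le_of_eq ?_) hb
        apply Finset.sum_congr rfl
        intro x hx
        rw [hAS]
        unfold wt
        have := hYc x hx
        rw [this, Nat.add_sub_cancel]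
      calc _ ≤ ∑ j ∈ Finset.range (ε ^ 2 + 1), 48 * n * (1 / 2 : ℝ) ^ ε :=
            Finset.sum_le_sum hinner
        _ = 48 * n * (((ε : ℝ) ^ 2 + 1) * (1 / 2) ^ ε) := by
            rw [Finset.sum_const, Finset.card_range, nsmul_eq_mul]
            push_cast
            ring
  refine (Finset.sum_le_sum hclass).trans ?_
  rw [Finset.sum_add_distrib, Finset.sum_ite_eq', ← Finset.mul_sum]
  have h0mem : (0 : ℕ) ∈ Finset.range (E + 1) := Finset.mem_range.mpr (Nat.succ_pos _)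
  simp only [h0mem, if_true]
  have := sum_series_le E
  nlinarith

/-- The sum of the potential over all vertices. -/
lemma total_bound {R : RF V} {n : ℕ} {q : ℝ} (hyp : Hyp R n q) (hn : 1 ≤ n)
    (hV : Fintype.card V ≤ n) (hq : 0 < q) (d : ℕ) :
    ∑ x, A R (8 * n * q) d x ≤ (d + 1) * (385 * n) := by
  have hmaps : ∀ x ∈ (univ : Finset V), R.dp x % (d + 1) ∈ Finset.range (d + 1) :=
    fun x _ => Finset.mem_range.mpr (Nat.mod_lt _ (Nat.succ_pos _))
  rw [← Finset.sum_fiberwise_of_maps_to hmaps]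
  have hlayer : ∀ ρ ∈ Finset.range (d + 1),
      ∑ x ∈ (univ : Finset V) with R.dp x % (d + 1) = ρ, A R (8 * n * q) d x ≤ 385 * n := by
    intro ρ _
    apply layer_bound hyp hn hV hq
    intro x hx x' hx' hne S S' hS hS'
    rw [Finset.disjoint_left]
    intro z hz hz'
    obtain ⟨i, hi, h1, h2⟩ := hS.2.1 z hz
    obtain ⟨i', hi', h1', h2'⟩ := hS'.2.1 z hz'
    have hx1 := (Finset.mem_filter.mp hx).2
    have hx2 := (Finset.mem_filter.mp hx').2
    have hmod : R.dp x ≡ R.dp x' [MOD (d + 1)] := by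
      unfold Nat.ModEq
      rw [hx1, hx2]
    have heq : R.dp x = R.dp x' := by
      apply Nat.ModEq.eq_of_abs_lt hmod
      push_cast
      rw [abs_lt]
      omega
    exact hne (eq_of_same_depth h1 h2 h1' h2' heq)
  refine (Finset.sum_le_sum hlayer).trans ?_
  rw [Finset.sum_const, Finset.card_range, nsmul_eq_mul]
  push_cast
  exact le_rfl

lemma arith_771 (d : ℕ) (hd : d ≠ 0) : (1 : ℝ) + 385 * (d + 1) ≤ 771 ^ d := by
  induction d with
  | zero => exact absurd rfl hd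
  | succ d ih =>
    by_cases h : d = 0
    · subst h; norm_num
    · have := ih h
      rw [pow_succ]
      push_cast
      have h1 : (1 : ℝ) ≤ 771 ^ d := one_le_pow₀ (by norm_num)
      nlinarith

/-- The total truncated potential. -/
theorem sum_U_le {R : RF V} {n : ℕ} {q : ℝ} (hyp : Hyp R n q) (hn : 1 ≤ n)
    (hV : Fintype.card V ≤ n) (hq : 0 < q) (d : ℕ) :
    ∑ x, U R (8 * n * q) d x ≤ n * 771 ^ d := by
  have hVR : (Fintype.card V : ℝ) ≤ n := by exact_mod_cast hV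
  have hn0 : (0 : ℝ) ≤ n := Nat.cast_nonneg _
  by_cases hd : d = 0
  · subst hd
    simp only [U_zero, Finset.sum_const, Finset.card_univ, nsmul_eq_mul, mul_one, pow_zero]
    exact hVR
  · have h1 : ∑ x, U R (8 * n * q) d x ≤ ∑ x, (1 + A R (8 * n * q) d x) :=
      Finset.sum_le_sum (fun x _ => U_le R _ d x)
    rw [Finset.sum_add_distrib] at h1
    simp only [Finset.sum_const, Finset.card_univ, nsmul_eq_mul, mul_one] at h1
    have h2 := total_bound hyp hn hV hq d
    have h3 := arith_771 d hd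
    calc ∑ x, U R (8 * n * q) d x ≤ (n : ℝ) * (1 + 385 * (d + 1)) := by nlinarith
      _ ≤ n * 771 ^ d := mul_le_mul_of_nonneg_left h3 hn0

end

end Vale.Agent.P064
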