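import Vale.Agent.P064.Peel

/-!
# An upper bound on the number of copies of a rooted forest in a complete graph
-/

open Finset
open scoped Classical Nat

namespace Vale.Agent.P064

noncomputable section

variable {Q N : Type*} [Fintype Q] [Fintype N]

/-- The children sets in the image under `g`, for parents at depth at least `h`. -/
def Kg (R : RF Q) (g : Q → N) (h : ℕ) (t : N) : Finset N :=
  (univ.filter (fun b => R.p b ≠ b ∧ g (R.p b) = t ∧ h ≤ R.dp (R.p b))).image g

/-- Vertices at depth `h`. -/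
def lvl (R : RF Q) (h : ℕ) : Finset Q := univ.filter (fun a => R.dp a = h)

/-- Vertices at depth at least `h`. -/
def geq (R : RF Q) (h : ℕ) : Finset Q := univ.filter (fun a => h ≤ R.dp a)

/-- The image of level `h`. -/
def Lay (R : RF Q) (g : Q → N) (h : ℕ) : Finset N := (lvl R h).image g

/-- All injective maps. -/
def Gs (Q N : Type*) [Fintype Q] [Fintype N] : Finset (Q → N) :=
  univ.filter Function.Injective

lemma mem_Gs {g : Q → N} : g ∈ Gs Q N ↔ Function.Injective g := by simp [Gs]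

/-- The possible child-set functions from level `h` on. -/
def EE (R : RF Q) (N : Type*) [Fintype N] (h : ℕ) (L : Finset N) : Finset (N → Finset N) :=
  ((Gs Q N).filter (fun g => Lay R g h = L)).image (fun g => Kg R g h)

/-- The child-set function at one level. -/
def sig (R : RF Q) (g : Q → N) (h : ℕ) (L : Finset N) : N → Finset N :=
  fun t => if t ∈ L then Kg R g h t else ∅

/-- The possible child-sets at one level. -/
def OO (R : RF Q) (N : Type*) [Fintype N] (h : ℕ) (L : Finset N) : Finset (N → Finset N) :=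
  ((Gs Q N).filter (fun g => Lay R g h = L)).image (fun g => sig R g h L)

/-- Product of the factorials at level `h`. -/
def mlvl (R : RF Q) (h : ℕ) : ℕ := ∏ a ∈ lvl R h, ((ch R a).card)!

/-- Product of the factorials at depth at least `h`. -/
def mgeq (R : RF Q) (h : ℕ) : ℕ := ∏ a ∈ geq R h, ((ch R a).card)!

lemma geq_eq (R : RF Q) (h : ℕ) : geq R h = lvl R h ∪ geq R (h + 1) := by
  ext a
  simp only [geq, lvl, Finset.mem_filter, Finset.mem_univ, true_and, Finset.mem_union]
  omega

lemma lvl_disj (R : RF Q) (h : ℕ) : Disjoint (lvl R h) (geq R (h + 1)) := by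
  rw [Finset.disjoint_left]
  intro a h1 h2
  simp only [geq, lvl, Finset.mem_filter, Finset.mem_univ, true_and] at h1 h2
  omega

lemma mgeq_eq (R : RF Q) (h : ℕ) : mgeq R h = mlvl R h * mgeq R (h + 1) := by
  unfold mgeq mlvl
  rw [geq_eq, Finset.prod_union (lvl_disj R h)]

lemma card_geq_eq (R : RF Q) (h : ℕ) :
    (geq R h).card = (lvl R h).card + (geq R (h + 1)).card := by
  rw [geq_eq, Finset.card_union_of_disjoint (lvl_disj R h)]

lemma geq_succ_card (R : RF Q) (h : ℕ) :
    (geq R (h + 1)).card = (lvl R (h + 1)).card + (geq R (h + 2)).card := card_geq_eq R (h + 1)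

/-- Children of level `h` vertices fill up level `h + 1`. -/
lemma sum_ch_lvl (R : RF Q) (hroot : ∀ a, R.p a = a → R.dp a = 0) (h : ℕ) :
    ∑ a ∈ lvl R h, (ch R a).card = (lvl R (h + 1)).card := by
  have hmaps : ∀ b ∈ lvl R (h + 1), R.p b ∈ lvl R h := by
    intro b hb
    have hb' : R.dp b = h + 1 := (Finset.mem_filter.mp hb).2
    have hne : R.p b ≠ b := fun hfix => by
      have := hroot b hfix; omega
    have := R.dp_of_ne hne
    exact Finset.mem_filter.mpr ⟨Finset.mem_univ _, by omega⟩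
  rw [Finset.card_eq_sum_card_fiberwise hmaps]
  apply Finset.sum_congr rfl
  intro a ha
  have ha' : R.dp a = h := (Finset.mem_filter.mp ha).2
  congr 1
  ext b
  simp only [Finset.mem_filter, mem_ch, lvl, Finset.mem_univ, true_and]
  constructor
  · rintro ⟨h1, h2⟩
    have := dp_of_mem_ch (mem_ch.mpr ⟨h1, h2⟩)
    exact ⟨by omega, h1⟩
  · rintro ⟨h1, h2⟩
    refine ⟨h2, ?_⟩
    rintro rfl
    omega

/-! ### Properties of the child-set functions -/

lemma Kg_apply {R : RF Q} {g : Q → N} (hg : Function.Injective g) {h : ℕ} {a : Q}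
    (ha : h ≤ R.dp a) : Kg R g h (g a) = (ch R a).image g := by
  unfold Kg
  congr 1
  ext b
  simp only [Finset.mem_filter, Finset.mem_univ, true_and, mem_ch]
  constructor
  · rintro ⟨h1, h2, _⟩
    have h3 := hg h2
    exact ⟨h3, fun h4 => h1 (by rw [h3, h4])⟩
  · rintro ⟨h1, h2⟩
    subst h1
    exact ⟨fun h => h2 h.symm, rfl, ha⟩

lemma card_Kg_apply {R : RF Q} {g : Q → N} (hg : Function.Injective g) {h : ℕ} {a : Q}
    (ha : h ≤ R.dp a) : (Kg R g h (g a)).card = (ch R a).card := by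
  rw [Kg_apply hg ha, Finset.card_image_of_injective _ hg]

/-- Gluing the top level and the rest. -/
lemma Kg_glue {R : RF Q} {g : Q → N} (hg : Function.Injective g) (h : ℕ) :
    Kg R g h = fun t => if t ∈ Lay R g h then sig R g h (Lay R g h) t else Kg R g (h + 1) t := by
  funext t
  by_cases ht : t ∈ Lay R g h
  · simp [ht, sig]
  · simp only [ht, if_false]
    unfold Kg
    congr 1
    ext b
    simp only [Finset.mem_filter, Finset.mem_univ, true_and]
    constructor
    · rintro ⟨h1, h2, h3⟩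
      refine ⟨h1, h2, ?_⟩
      by_contra hcon
      have hd : R.dp (R.p b) = h := by omega
      exact ht (Finset.mem_image.mpr ⟨R.p b, Finset.mem_filter.mpr ⟨Finset.mem_univ _, hd⟩, h2⟩)
    · rintro ⟨h1, h2, h3⟩
      exact ⟨h1, h2, by omega⟩

lemma mem_Lay {R : RF Q} {g : Q → N} {h : ℕ} {s : N} :
    s ∈ Lay R g h ↔ ∃ a, R.dp a = h ∧ g a = s := by
  simp [Lay, lvl]

lemma Lay_succ {R : RF Q} (hroot : ∀ a, R.p a = a → R.dp a = 0) {g : Q → N}
    (hg : Function.Injective g) (h : ℕ) :
    Lay R g (h + 1) = (Lay R g h).biUnion (sig R g h (Lay R g h)) := by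
  ext s
  rw [Finset.mem_biUnion, mem_Lay]
  constructor
  · rintro ⟨b, hb, rfl⟩
    have hne : R.p b ≠ b := fun hfix => by
      have := hroot b hfix; omega
    have hd := R.dp_of_ne hne
    have hmem : g (R.p b) ∈ Lay R g h := mem_Lay.mpr ⟨R.p b, by omega, rfl⟩
    refine ⟨g (R.p b), hmem, ?_⟩
    simp only [sig, hmem, if_true]
    rw [Kg_apply hg (by omega : h ≤ R.dp (R.p b))]
    exact Finset.mem_image.mpr ⟨b, mem_ch.mpr ⟨rfl, fun h => hne h.symm⟩, rfl⟩
  · rintro ⟨t, ht, hs⟩
    obtain ⟨a, ha, rfl⟩ := mem_Lay.mp ht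
    simp only [sig, ht, if_true] at hs
    rw [Kg_apply hg (by omega : h ≤ R.dp a)] at hs
    obtain ⟨b, hb, rfl⟩ := Finset.mem_image.mp hs
    exact ⟨b, by have := dp_of_mem_ch hb; omega, rfl⟩

/-! ### The Kraft inequality -/

/-- The weight of a set of size `j`. -/
def fw (n : ℕ) (j : ℕ) : ℝ := (j ! : ℝ) * ((n : ℝ)⁻¹) ^ j * (1 / 2) ^ (j + 1)

lemma fw_nonneg (n j : ℕ) : 0 ≤ fw n j := by unfold fw; positivity

lemma sum_fw_le (hn : 0 < Fintype.card N) :
    ∑ S : Finset N, fw (Fintype.card N) S.card ≤ 1 := by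
  set n := Fintype.card N with hndef
  have hnR : (0 : ℝ) < n := by exact_mod_cast hn
  have h1 : ∑ S : Finset N, fw n S.card = ∑ S ∈ (univ : Finset N).powerset, fw n S.card := by
    rw [Finset.powerset_univ]
  rw [h1, Finset.sum_powerset_apply_card, Finset.card_univ, ← hndef]
  have h2 : ∀ j ∈ Finset.range (n + 1), (n.choose j) • fw n j ≤ (1 / 2) ^ (j + 1) := by
    intro j _
    rw [nsmul_eq_mul]
    unfold fw
    have h3 : ((n.choose j : ℕ) : ℝ) * (j ! : ℝ) ≤ (n : ℝ) ^ j := by
      have := Nat.descFactorial_eq_factorial_mul_choose n j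
      have h4 : j ! * n.choose j ≤ n ^ j := by
        rw [← this]; exact Nat.descFactorial_le_pow n j
      have h5 : ((j ! * n.choose j : ℕ) : ℝ) ≤ ((n ^ j : ℕ) : ℝ) := by exact_mod_cast h4
      push_cast at h5
      linarith
    have h6 : ((n.choose j : ℕ) : ℝ) * ((j ! : ℝ) * ((n : ℝ)⁻¹) ^ j * (1 / 2) ^ (j + 1)) =
        (((n.choose j : ℕ) : ℝ) * (j ! : ℝ) * ((n : ℝ)⁻¹) ^ j) * (1 / 2) ^ (j + 1) := by ring
    rw [h6]
    have h7 : ((n.choose j : ℕ) : ℝ) * (j ! : ℝ) * ((n : ℝ)⁻¹) ^ j ≤ 1 := by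
      have h8 : (n : ℝ) ^ j * ((n : ℝ)⁻¹) ^ j = 1 := by
        rw [← mul_pow, mul_inv_cancel₀ hnR.ne', one_pow]
      rw [← h8]
      exact mul_le_mul_of_nonneg_right h3 (by positivity)
    calc _ ≤ 1 * (1 / 2 : ℝ) ^ (j + 1) := mul_le_mul_of_nonneg_right h7 (by positivity)
      _ = _ := one_mul _
  refine (Finset.sum_le_sum h2).trans ?_
  have h9 := sum_geometric_two_le (n + 1)
  have h10 : ∑ j ∈ Finset.range (n + 1), (1 / 2 : ℝ) ^ (j + 1) =
      (1 / 2) * ∑ j ∈ Finset.range (n + 1), (1 / 2 : ℝ) ^ j := by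
    rw [Finset.mul_sum]
    apply Finset.sum_congr rfl
    intro j _
    rw [pow_succ]; ring
  rw [h10]
  linarith

/-- The Kraft inequality for functions supported on `L`. -/
lemma kraft (hn : 0 < Fintype.card N) (L : Finset N) :
    ∑ σ ∈ Fintype.piFinset (fun t => if t ∈ L then (univ : Finset (Finset N)) else {∅}),
      ∏ t ∈ L, fw (Fintype.card N) (σ t).card ≤ 1 := by
  set n := Fintype.card N
  have h1 : ∀ σ : N → Finset N, ∏ t ∈ L, fw n (σ t).card =
      ∏ t, (if t ∈ L then fw n (σ t).card else 1) := by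
    intro σ
    rw [Finset.prod_ite_mem, Finset.univ_inter]
  simp only [h1]
  have h2 := Finset.prod_univ_sum (fun t : N => if t ∈ L then (univ : Finset (Finset N)) else {∅})
    (fun t S => if t ∈ L then fw n S.card else 1)
  rw [← h2]
  apply Finset.prod_le_one
  · intro t _
    by_cases ht : t ∈ L
    · simp only [ht, if_true]
      exact Finset.sum_nonneg (fun S _ => fw_nonneg _ _)
    · simp [ht]
  · intro t _
    by_cases ht : t ∈ L
    · simp only [ht, if_true]
      exact sum_fw_le hn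
    · simp [ht]

/-- The bound on the number of possibilities at one level. -/
lemma card_OO_le (R : RF Q) (hroot : ∀ a, R.p a = a → R.dp a = 0)
    (hn : 0 < Fintype.card N) (h : ℕ) (L : Finset N) :
    ((OO R N h L).card : ℝ) * (mlvl R h : ℝ) ≤
      (Fintype.card N : ℝ) ^ (lvl R (h + 1)).card * 2 ^ ((lvl R (h + 1)).card + (lvl R h).card) := by
  set n := Fintype.card N with hndef
  have hnR : (0 : ℝ) < n := by exact_mod_cast hn
  set s := (lvl R (h + 1)).card with hs
  set l := (lvl R h).card with hl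
  set w : ℝ := (mlvl R h : ℝ) * ((n : ℝ)⁻¹) ^ s * (1 / 2) ^ (s + l) with hw
  have hweight : ∀ σ ∈ OO R N h L, ∏ t ∈ L, fw n (σ t).card = w := by
    intro σ hσ
    obtain ⟨g, hg, rfl⟩ := Finset.mem_image.mp hσ
    obtain ⟨hg1, hg2⟩ := Finset.mem_filter.mp hg
    have hg3 := mem_Gs.mp hg1
    rw [← hg2]
    unfold Lay
    rw [Finset.prod_image (fun a _ b _ hab => hg3 hab)]
    have hcard : ∀ a ∈ lvl R h, fw n (sig R g h ((lvl R h).image g) (g a)).card =
        fw n (ch R a).card := by
      intro a ha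
      have ha' : R.dp a = h := (Finset.mem_filter.mp ha).2
      have hmem : g a ∈ (lvl R h).image g := Finset.mem_image_of_mem g ha
      simp only [sig, hmem, if_true]
      rw [card_Kg_apply hg3 (by omega)]
    rw [Finset.prod_congr rfl hcard]
    unfold fw
    rw [Finset.prod_mul_distrib, Finset.prod_mul_distrib, Finset.prod_pow_eq_pow_sum,
      Finset.prod_pow_eq_pow_sum, sum_ch_lvl R hroot h]
    have hsum : ∑ a ∈ lvl R h, ((ch R a).card + 1) = s + l := by
      rw [Finset.sum_add_distrib, sum_ch_lvl R hroot h]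
      simp [hs, hl]
    rw [hsum, hw]
    unfold mlvl
    push_cast
    ring
  have hsub : OO R N h L ⊆
      Fintype.piFinset (fun t => if t ∈ L then (univ : Finset (Finset N)) else {∅}) := by
    intro σ hσ
    obtain ⟨g, _, rfl⟩ := Finset.mem_image.mp hσ
    refine Fintype.mem_piFinset.mpr ?_
    intro t
    by_cases ht : t ∈ L <;> simp [ht, sig]
  have h1 : ((OO R N h L).card : ℝ) * w ≤ 1 := by
    calc ((OO R N h L).card : ℝ) * w = ∑ σ ∈ OO R N h L, ∏ t ∈ L, fw n (σ t).card := by
          rw [Finset.sum_congr rfl hweight, Finset.sum_const, nsmul_eq_mul]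
      _ ≤ ∑ σ ∈ Fintype.piFinset (fun t => if t ∈ L then (univ : Finset (Finset N)) else {∅}),
            ∏ t ∈ L, fw n (σ t).card :=
          Finset.sum_le_sum_of_subset_of_nonneg hsub
            (fun σ _ _ => Finset.prod_nonneg (fun t _ => fw_nonneg _ _))
      _ ≤ 1 := kraft hn L
  have h2 : ((n : ℝ)) ^ s * ((n : ℝ)⁻¹) ^ s = 1 := by
    rw [← mul_pow, mul_inv_cancel₀ hnR.ne', one_pow]
  have h3 : (2 : ℝ) ^ (s + l) * (1 / 2) ^ (s + l) = 1 := by
    rw [← mul_pow]; norm_num
  have h4 : ((OO R N h L).card : ℝ) * (mlvl R h : ℝ) =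
      (((OO R N h L).card : ℝ) * w) * ((n : ℝ) ^ s * 2 ^ (s + l)) := by
    rw [hw]
    calc _ = ((OO R N h L).card : ℝ) * (mlvl R h : ℝ) *
            (((n : ℝ) ^ s * ((n : ℝ)⁻¹) ^ s) * ((2 : ℝ) ^ (s + l) * (1 / 2) ^ (s + l))) := by
          rw [h2, h3]; ring
      _ = _ := by ring
  rw [h4]
  calc _ ≤ 1 * ((n : ℝ) ^ s * 2 ^ (s + l)) :=
        mul_le_mul_of_nonneg_right h1 (by positivity)
    _ = _ := one_mul _

/-- The induction from the deepest levels upwards. -/
lemma card_EE_le (R : RF Q) (hroot : ∀ a, R.p a = a → R.dp a = 0)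
    (hn : 0 < Fintype.card N) (k : ℕ) : ∀ (h : ℕ) (L : Finset N),
      (∑ a, R.dp a) + 1 ≤ h + k →
      ((EE R N h L).card : ℝ) * (mgeq R h : ℝ) ≤
        (2 * (Fintype.card N : ℝ)) ^ (geq R (h + 1)).card * 2 ^ (geq R h).card := by
  induction k with
  | zero =>
    intro h L hh
    have hempty : geq R h = ∅ := by
      apply Finset.filter_eq_empty_iff.mpr
      intro a _
      have : R.dp a ≤ ∑ a, R.dp a :=
        Finset.single_le_sum (f := R.dp) (fun _ _ => Nat.zero_le _) (Finset.mem_univ a)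
      omega
    have hempty' : geq R (h + 1) = ∅ := by
      apply Finset.filter_eq_empty_iff.mpr
      intro a _
      have : R.dp a ≤ ∑ a, R.dp a :=
        Finset.single_le_sum (f := R.dp) (fun _ _ => Nat.zero_le _) (Finset.mem_univ a)
      omega
    rw [hempty, hempty']
    simp only [mgeq, hempty, Finset.prod_empty, Nat.cast_one, mul_one, Finset.card_empty, pow_zero]
    have hkg : ∀ g : Q → N, Kg R g h = fun _ => ∅ := by
      intro g
      funext t
      unfold Kg
      rw [Finset.image_eq_empty]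
      apply Finset.filter_eq_empty_iff.mpr
      intro b _
      rintro ⟨_, _, h3⟩
      have : R.dp (R.p b) ≤ ∑ a, R.dp a :=
        Finset.single_le_sum (f := R.dp) (fun _ _ => Nat.zero_le _) (Finset.mem_univ _)
      omega
    have hsub : EE R N h L ⊆ {fun _ => ∅} := by
      intro κ hκ
      obtain ⟨g, _, rfl⟩ := Finset.mem_image.mp hκ
      simp [hkg g]
    have := Finset.card_le_card hsub
    rw [Finset.card_singleton] at this
    exact_mod_cast this
  | succ k ih =>
    intro h L hh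
    have hIH := ih (h + 1)
    set n := Fintype.card N with hndef
    set s := (lvl R (h + 1)).card with hs
    set l := (lvl R h).card with hl
    -- the recursion
    have hsub : EE R N h L ⊆ (OO R N h L).biUnion (fun σ =>
        (EE R N (h + 1) (L.biUnion σ)).image (fun κ => fun t => if t ∈ L then σ t else κ t)) := by
      intro κ hκ
      obtain ⟨g, hg, rfl⟩ := Finset.mem_image.mp hκ
      obtain ⟨hg1, hg2⟩ := Finset.mem_filter.mp hg
      have hg3 := mem_Gs.mp hg1
      refine Finset.mem_biUnion.mpr ⟨sig R g h L, Finset.mem_image.mpr ⟨g, hg, rfl⟩, ?_⟩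
      refine Finset.mem_image.mpr ⟨Kg R g (h + 1), ?_, ?_⟩
      · refine Finset.mem_image.mpr ⟨g, Finset.mem_filter.mpr ⟨hg1, ?_⟩, rfl⟩
        rw [Lay_succ hroot hg3 h, hg2]
      · have := Kg_glue (R := R) hg3 h
        rw [hg2] at this
        rw [this]
    have hcard : ((EE R N h L).card : ℝ) ≤
        ∑ σ ∈ OO R N h L, ((EE R N (h + 1) (L.biUnion σ)).card : ℝ) := by
      have h1 := (Finset.card_le_card hsub).trans Finset.card_biUnion_le
      have h2 : ∑ σ ∈ OO R N h L, ((EE R N (h + 1) (L.biUnion σ)).image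
          (fun κ => fun t => if t ∈ L then σ t else κ t)).card ≤
          ∑ σ ∈ OO R N h L, (EE R N (h + 1) (L.biUnion σ)).card :=
        Finset.sum_le_sum (fun σ _ => Finset.card_image_le)
      exact_mod_cast h1.trans h2
    set Cn : ℝ := (2 * (n : ℝ)) ^ (geq R (h + 1 + 1)).card * 2 ^ (geq R (h + 1)).card with hCn
    have hCn0 : 0 ≤ Cn := by positivity
    have h5 : ∀ σ ∈ OO R N h L,
        ((EE R N (h + 1) (L.biUnion σ)).card : ℝ) * (mgeq R (h + 1) : ℝ) ≤ Cn :=
      fun σ _ => hIH (L.biUnion σ) (by omega)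
    have hm0 : (0 : ℝ) ≤ (mgeq R (h + 1) : ℝ) := Nat.cast_nonneg _
    have hml0 : (0 : ℝ) ≤ (mlvl R h : ℝ) := Nat.cast_nonneg _
    have hOO := card_OO_le R hroot hn h L
    have hgs : (geq R (h + 1)).card = s + (geq R (h + 1 + 1)).card := geq_succ_card R h
    have hgh : (geq R h).card = l + (geq R (h + 1)).card := card_geq_eq R h
    calc ((EE R N h L).card : ℝ) * (mgeq R h : ℝ)
        = ((EE R N h L).card : ℝ) * (mgeq R (h + 1) : ℝ) * (mlvl R h : ℝ) := by
          rw [mgeq_eq]; push_cast; ring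
      _ ≤ (∑ σ ∈ OO R N h L, ((EE R N (h + 1) (L.biUnion σ)).card : ℝ)) *
            (mgeq R (h + 1) : ℝ) * (mlvl R h : ℝ) := by
          apply mul_le_mul_of_nonneg_right _ hml0
          exact mul_le_mul_of_nonneg_right hcard hm0
      _ = (∑ σ ∈ OO R N h L, ((EE R N (h + 1) (L.biUnion σ)).card : ℝ) *
            (mgeq R (h + 1) : ℝ)) * (mlvl R h : ℝ) := by
          rw [Finset.sum_mul]
      _ ≤ (∑ _σ ∈ OO R N h L, Cn) * (mlvl R h : ℝ) := by
          apply mul_le_mul_of_nonneg_right _ hml0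
          exact Finset.sum_le_sum h5
      _ = ((OO R N h L).card : ℝ) * (mlvl R h : ℝ) * Cn := by
          rw [Finset.sum_const, nsmul_eq_mul]; ring
      _ ≤ ((n : ℝ) ^ s * 2 ^ (s + l)) * Cn := mul_le_mul_of_nonneg_right hOO hCn0
      _ = (2 * (n : ℝ)) ^ (geq R (h + 1)).card * 2 ^ (geq R h).card := by
          rw [hCn, hgh, hgs, mul_pow, mul_pow, pow_add, pow_add, pow_add, pow_add]
          ring

end

end Vale.Agent.P064
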