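import Vale.Agent.P064.RF

/-!
# A forest is a rooted forest
-/

open scoped Classical

namespace Vale.Agent.P064

noncomputable section

variable {V : Type*} {H : SimpleGraph V}

/-- A chosen root in each component. -/
def rootOf (H : SimpleGraph V) (x : V) : V := Quot.out (H.connectedComponentMk x)

lemma reachable_rootOf (x : V) : H.Reachable (rootOf H x) x :=
  SimpleGraph.ConnectedComponent.exact (Quot.out_eq (H.connectedComponentMk x))

lemma rootOf_eq {x y : V} (h : H.Reachable x y) : rootOf H x = rootOf H y := by
  unfold rootOf
  rw [SimpleGraph.ConnectedComponent.sound h]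

/-- A neighbour closer to the root exists. -/
lemma exists_parent (x : V) (hx : x ≠ rootOf H x) :
    ∃ y, H.Adj y x ∧ H.dist (rootOf H x) y + 1 = H.dist (rootOf H x) x := by
  obtain ⟨p, hp, hlen⟩ := (reachable_rootOf (H := H) x).exists_path_of_dist
  have hnn : ¬ p.Nil := by
    intro hnil
    exact hx hnil.eq.symm
  refine ⟨p.penultimate, p.adj_penultimate hnn, ?_⟩
  have h1 : H.dist (rootOf H x) p.penultimate ≤ p.dropLast.length := SimpleGraph.dist_le _
  have h2 : p.dropLast.length + 1 = p.length := by
    exact SimpleGraph.Walk.length_dropLast_add_one hnn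
  have h3 : H.dist (rootOf H x) x ≤ H.dist (rootOf H x) p.penultimate + 1 := by
    have hadj := p.adj_penultimate hnn
    have hreach : H.Reachable (rootOf H x) p.penultimate := ⟨p.dropLast⟩
    obtain ⟨q, hq⟩ := hreach.exists_walk_length_eq_dist
    have := SimpleGraph.dist_le (q.concat hadj)
    rw [SimpleGraph.Walk.length_concat, hq] at this
    exact this
  omega

/-- Uniqueness of the parent. -/
lemma parent_unique (hH : H.IsAcyclic) {r x y y' : V} (h1 : H.Adj y x) (h2 : H.Adj y' x)
    (hreach : H.Reachable r y) (hreach' : H.Reachable r y')
    (hd : H.dist r y + 1 = H.dist r x) (hd' : H.dist r y' + 1 = H.dist r x) : y = y' := by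
  obtain ⟨q, hq⟩ := hreach.exists_walk_length_eq_dist
  obtain ⟨q', hq'⟩ := hreach'.exists_walk_length_eq_dist
  have hlen : (q.concat h1).length = H.dist r x := by
    rw [SimpleGraph.Walk.length_concat, hq, hd]
  have hlen' : (q'.concat h2).length = H.dist r x := by
    rw [SimpleGraph.Walk.length_concat, hq', hd']
  have hpath := SimpleGraph.Walk.isPath_of_length_eq_dist _ hlen
  have hpath' := SimpleGraph.Walk.isPath_of_length_eq_dist _ hlen'
  have heq : q.concat h1 = q'.concat h2 :=
    Subtype.mk.inj ((hH.subsingleton_path r x).elim ⟨_, hpath⟩ ⟨_, hpath'⟩)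
  have h3 := congrArg SimpleGraph.Walk.penultimate heq
  simpa using h3

/-- **Every forest is a rooted forest.** -/
theorem exists_RF (hH : H.IsAcyclic) :
    ∃ R : RF V, (∀ a, R.p a = a → R.dp a = 0) ∧
      ∀ a b, H.Adj a b ↔ a ≠ b ∧ (R.p a = b ∨ R.p b = a) := by
  classical
  let pp : V → V := fun x => if hx : x ≠ rootOf H x then (exists_parent x hx).choose else x
  let dd : V → ℕ := fun x => H.dist (rootOf H x) x
  have hpp : ∀ x, x ≠ rootOf H x → H.Adj (pp x) x ∧
      H.dist (rootOf H x) (pp x) + 1 = H.dist (rootOf H x) x := by
    intro x hx
    simp only [pp, hx, ne_eq, not_false_eq_true, dite_true]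
    exact (exists_parent x hx).choose_spec
  have hpp' : ∀ x, x = rootOf H x → pp x = x := by
    intro x hx
    simp [pp, ← hx]
  have hroot0 : ∀ x, x = rootOf H x → dd x = 0 := by
    intro x hx
    simp only [dd, ← hx, SimpleGraph.dist_self]
  have hfix : ∀ a, pp a = a → a = rootOf H a := by
    intro a ha
    by_contra hne
    have := (hpp a hne).1
    rw [ha] at this
    exact H.loopless.irrefl a this
  have hstep : ∀ a, a ≠ rootOf H a → dd a = dd (pp a) + 1 := by
    intro a hne
    obtain ⟨h1, h2⟩ := hpp a hne
    have h3 : rootOf H (pp a) = rootOf H a := rootOf_eq h1.reachable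
    simp only [dd, h3, h2]
  refine ⟨⟨pp, dd, ?_⟩, ?_, ?_⟩
  · intro a
    by_cases ha : a = rootOf H a
    · exact Or.inl (hpp' a ha)
    · exact Or.inr (hstep a ha)
  · intro a ha
    exact hroot0 a (hfix a ha)
  · intro a b
    constructor
    · intro hab
      refine ⟨hab.ne, ?_⟩
      have hr : rootOf H a = rootOf H b := rootOf_eq hab.reachable
      have hreach : H.Reachable (rootOf H a) a := reachable_rootOf a
      have hreachb : H.Reachable (rootOf H a) b := by rw [hr]; exact reachable_rootOf b
      rcases hH.dist_eq_dist_add_one_of_adj_of_reachable (u := rootOf H a) hab hreach with h | h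
      · -- `a` is deeper
        left
        have hne : a ≠ rootOf H a := by
          intro h0
          have : H.dist (rootOf H a) a = 0 := by
            conv_lhs => rw [← h0]
            exact SimpleGraph.dist_self
          omega
        obtain ⟨h1, h2⟩ := hpp a hne
        have hreachp : H.Reachable (rootOf H a) (pp a) := hreach.trans h1.symm.reachable
        exact parent_unique hH h1 hab.symm hreachp hreachb h2 h.symm
      · -- `b` is deeper
        right
        have hne : b ≠ rootOf H b := by
          intro h0
          have h4 : H.dist (rootOf H b) b = 0 := by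
            conv_lhs => rw [← h0]
            exact SimpleGraph.dist_self
          rw [← hr] at h4
          omega
        obtain ⟨h1, h2⟩ := hpp b hne
        rw [← hr] at h2
        have hreachp : H.Reachable (rootOf H a) (pp b) := hreachb.trans h1.symm.reachable
        exact parent_unique hH h1 hab hreachp hreach h2 h.symm
    · rintro ⟨hne, h | h⟩
      · have hnr : a ≠ rootOf H a := by
          intro h0
          have := hpp' a h0
          change pp a = b at h
          rw [this] at h
          exact hne h
        have := (hpp a hnr).1
        change pp a = b at h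
        rw [h] at this
        exact this.symm
      · have hnr : b ≠ rootOf H b := by
          intro h0
          have := hpp' b h0
          change pp b = a at h
          rw [this] at h
          exact hne h.symm
        have := (hpp b hnr).1
        change pp b = a at h
        rw [h] at this
        exact this

end

end Vale.Agent.P064
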