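import Vale.Agent.P064.Bridge
import Vale.Agent.P064.Budget

/-!
# The hypothesis on subgraphs gives the bound on unions of disjoint pieces
-/

open Finset
open scoped Classical Nat

namespace Vale.Agent.P064

noncomputable section

variable {V : Type*} [Fintype V]

/-- The subgraph of a forest formed by a family of pieces. -/
def gs (H : SimpleGraph V) (R : RF V)
    (hadj : ∀ a b, H.Adj a b ↔ a ≠ b ∧ (R.p a = b ∨ R.p b = a)) (X : Finset V) (S : V → Finset V) :
    H.Subgraph where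
  verts := ((X.biUnion S : Finset V) : Set V)
  Adj := fun a b => a ∈ X.biUnion S ∧ b ∈ X.biUnion S ∧ a ≠ b ∧
    ((b ∉ X ∧ R.p b = a) ∨ (a ∉ X ∧ R.p a = b))
  adj_sub := by
    rintro a b ⟨_, _, hne, h | h⟩
    · exact (hadj a b).mpr ⟨hne, Or.inr h.2⟩
    · exact (hadj a b).mpr ⟨hne, Or.inl h.2⟩
  edge_vert := fun h => Finset.mem_coe.mpr h.1
  symm := ⟨fun a b ⟨h1, h2, hne, h⟩ => ⟨h2, h1, hne.symm, h.symm⟩⟩

section

variable {H : SimpleGraph V} {R : RF V}
  {hadj : ∀ a b, H.Adj a b ↔ a ≠ b ∧ (R.p a = b ∨ R.p b = a)} {X : Finset V} {S : V → Finset V}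

lemma mem_gs_verts {z : V} : z ∈ (gs H R hadj X S).verts ↔ ∃ x ∈ X, z ∈ S x := by
  change z ∈ ((X.biUnion S : Finset V) : Set V) ↔ _
  simp

lemma gs_adj (a b : (gs H R hadj X S).verts) : (gs H R hadj X S).coe.Adj a b ↔
    (a : V) ∈ X.biUnion S ∧ (b : V) ∈ X.biUnion S ∧ (a : V) ≠ b ∧
      (((b : V) ∉ X ∧ R.p b = a) ∨ ((a : V) ∉ X ∧ R.p a = b)) := Iff.rfl

end

/-- The root of the piece of `z`. -/
def rt (X : Finset V) (S : V → Finset V) (z : V) : V :=
  if h : ∃ x ∈ X, z ∈ S x then h.choose else z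

lemma fam_uniq {X : Finset V} {S : V → Finset V} (hdis : (X : Set V).PairwiseDisjoint S) {z x x' : V}
    (hx : x ∈ X) (hx' : x' ∈ X) (hz : z ∈ S x) (hz' : z ∈ S x') : x = x' := by
  by_contra hne
  exact Finset.disjoint_left.mp (hdis hx hx' hne) hz hz'

lemma rt_eq {X : Finset V} {S : V → Finset V} (hdis : (X : Set V).PairwiseDisjoint S) {z x : V}
    (hx : x ∈ X) (hz : z ∈ S x) : rt X S z = x := by
  have hex : ∃ x ∈ X, z ∈ S x := ⟨x, hx, hz⟩
  simp only [rt, hex, dite_true]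
  exact fam_uniq hdis hex.choose_spec.1 hx hex.choose_spec.2 hz

lemma rt_mem {X : Finset V} {S : V → Finset V} (hdis : (X : Set V).PairwiseDisjoint S) {z : V}
    (hz : ∃ x ∈ X, z ∈ S x) : rt X S z ∈ X ∧ z ∈ S (rt X S z) := by
  rw [rt_eq hdis hz.choose_spec.1 hz.choose_spec.2]
  exact hz.choose_spec

lemma fam_par {R : RF V} {d : ℕ} {X : Finset V} {S : V → Finset V}
    (hS : ∀ x ∈ X, IsPiece R d x (S x)) {z x : V} (hx : x ∈ X) (hz : z ∈ S x) (hzX : z ∉ X) :
    R.p z ∈ S x ∧ R.p z ≠ z ∧ R.dp z = R.dp (R.p z) + 1 := by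
  have hne : z ≠ x := fun h => hzX (h ▸ hx)
  have h1 := piece_ne_depth (hS x hx) hz hne
  exact ⟨(hS x hx).2.2 z hz hne, h1.2.1, h1.2.2⟩

/-- The rooted forest structure of the family of pieces. -/
lemma exists_RF_gs (H : SimpleGraph V) (R : RF V)
    (hadj : ∀ a b, H.Adj a b ↔ a ≠ b ∧ (R.p a = b ∨ R.p b = a)) {d : ℕ} {X : Finset V}
    {S : V → Finset V} (hS : ∀ x ∈ X, IsPiece R d x (S x))
    (hdis : (X : Set V).PairwiseDisjoint S) :
    ∃ R' : RF (gs H R hadj X S).verts,
      (∀ z : (gs H R hadj X S).verts, R'.p z = z ↔ (z : V) ∈ X) ∧ (∀ z : (gs H R hadj X S).verts, R'.dp z = 0 ↔ (z : V) ∈ X) ∧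
      (∀ z : (gs H R hadj X S).verts, (z : V) ∉ X → ((R'.p z : (gs H R hadj X S).verts) : V) = R.p z) := by
  have hrtmem : ∀ z : (gs H R hadj X S).verts, rt X S z ∈ X ∧ (z : V) ∈ S (rt X S z) :=
    fun z => rt_mem hdis (mem_gs_verts.mp z.2)
  have hparmem : ∀ z : (gs H R hadj X S).verts, (z : V) ∉ X → R.p z ∈ (gs H R hadj X S).verts := by
    intro z hz
    obtain ⟨h1, h2⟩ := hrtmem z
    exact mem_gs_verts.mpr ⟨rt X S z, h1, (fam_par hS h1 h2 hz).1⟩
  let pp : (gs H R hadj X S).verts → (gs H R hadj X S).verts := fun z =>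
    if h : (z : V) ∈ X then z else ⟨R.p z, hparmem z h⟩
  have hpp1 : ∀ z : (gs H R hadj X S).verts, (z : V) ∈ X → pp z = z := by
    intro z hz
    simp [pp, hz]
  have hpp2 : ∀ z : (gs H R hadj X S).verts, (z : V) ∉ X →
      ((pp z : (gs H R hadj X S).verts) : V) = R.p z := by
    intro z hz
    simp [pp, hz]
  let dd : (gs H R hadj X S).verts → ℕ := fun z => R.dp z - R.dp (rt X S z)
  have hrt_self : ∀ z : (gs H R hadj X S).verts, (z : V) ∈ X → rt X S z = z :=
    fun z hz => rt_eq hdis hz (hS _ hz).1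
  have hdd_par : ∀ z : (gs H R hadj X S).verts, (z : V) ∉ X → dd z = dd (pp z) + 1 := by
    intro z hz
    obtain ⟨h1, h2⟩ := hrtmem z
    obtain ⟨h3, h4, h5⟩ := fam_par hS h1 h2 hz
    simp only [dd]
    rw [hpp2 z hz]
    have h6 : rt X S (R.p z) = rt X S z := rt_eq hdis h1 h3
    rw [h6]
    have h7 := piece_depth_ge (hS _ h1) h3
    omega
  have hne_of_notMem : ∀ z : (gs H R hadj X S).verts, (z : V) ∉ X → pp z ≠ z := by
    intro z hz h
    have h1 := hpp2 z hz
    rw [h] at h1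
    obtain ⟨h2, h3⟩ := hrtmem z
    exact (fam_par hS h2 h3 hz).2.1 h1.symm
  refine ⟨⟨pp, dd, ?_⟩, ?_, ?_, hpp2⟩
  · intro a
    by_cases ha : (a : V) ∈ X
    · exact Or.inl (hpp1 a ha)
    · exact Or.inr (hdd_par a ha)
  · intro z
    constructor
    · intro h
      by_contra hcon
      exact hne_of_notMem z hcon h
    · exact hpp1 z
  · intro z
    constructor
    · intro h
      by_contra hcon
      have := hdd_par z hcon
      change dd z = 0 at h
      omega
    · intro h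
      change dd z = 0
      simp only [dd]
      rw [hrt_self z h]
      exact Nat.sub_self _

variable {H : SimpleGraph V} {R : RF V}
  {hadj : ∀ a b, H.Adj a b ↔ a ≠ b ∧ (R.p a = b ∨ R.p b = a)} {X : Finset V} {S : V → Finset V}

/-- The adjacency of the subgraph in terms of its rooted forest structure. -/
lemma gs_adj_iff {R' : RF (gs H R hadj X S).verts} (h1 : ∀ z : (gs H R hadj X S).verts, R'.p z = z ↔ (z : V) ∈ X)
    (h3 : ∀ z : (gs H R hadj X S).verts, (z : V) ∉ X → ((R'.p z : (gs H R hadj X S).verts) : V) = R.p z)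
    (a b : (gs H R hadj X S).verts) :
    (gs H R hadj X S).coe.Adj a b ↔ a ≠ b ∧ (R'.p a = b ∨ R'.p b = a) := by
  have hvmem : ∀ z : (gs H R hadj X S).verts, (z : V) ∈ X.biUnion S :=
    fun z => Finset.mem_coe.mp z.2
  rw [gs_adj]
  constructor
  · rintro ⟨_, _, hne, h⟩
    refine ⟨fun hab => hne (by rw [hab]), ?_⟩
    rcases h with ⟨h4, h5⟩ | ⟨h4, h5⟩
    · right
      apply Subtype.ext
      rw [h3 b h4, h5]
    · left
      apply Subtype.ext
      rw [h3 a h4, h5]
  · rintro ⟨hne, h⟩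
    refine ⟨hvmem a, hvmem b, fun hab => hne (Subtype.ext hab), ?_⟩
    rcases h with h | h
    · have ha : (a : V) ∉ X := by
        intro hcon
        exact hne (((h1 a).mpr hcon).symm.trans h)
      right
      refine ⟨ha, ?_⟩
      have h4 := h3 a ha
      rw [h] at h4
      exact h4.symm
    · have hb : (b : V) ∉ X := by
        intro hcon
        exact hne (h.symm.trans ((h1 b).mpr hcon))
      left
      refine ⟨hb, ?_⟩
      have h4 := h3 b hb
      rw [h] at h4
      exact h4.symm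

lemma gs_card_verts [Fintype (gs H R hadj X S).verts] (hdis : (X : Set V).PairwiseDisjoint S) :
    Fintype.card (gs H R hadj X S).verts = ∑ x ∈ X, (S x).card := by
  have h1 : Fintype.card (gs H R hadj X S).verts = (X.biUnion S).card :=
    Fintype.card_of_subtype (X.biUnion S) (fun z => by
      change z ∈ X.biUnion S ↔ z ∈ ((X.biUnion S : Finset V) : Set V)
      simp)
  rw [h1, Finset.card_biUnion]
  intro x hx x' hx' hne
  exact hdis hx hx' hne

lemma gs_card_filter [Fintype (gs H R hadj X S).verts] {d : ℕ}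
    (hS : ∀ x ∈ X, IsPiece R d x (S x)) :
    ((univ : Finset (gs H R hadj X S).verts).filter (fun z : (gs H R hadj X S).verts => (z : V) ∈ X)).card = X.card := by
  have hset : ((univ : Finset (gs H R hadj X S).verts).filter (fun z : (gs H R hadj X S).verts => (z : V) ∈ X)).image
      (fun z : (gs H R hadj X S).verts => (z : V)) = X := by
    ext x
    simp only [Finset.mem_image, Finset.mem_filter, Finset.mem_univ, true_and]
    constructor
    · rintro ⟨z, hz, rfl⟩
      exact hz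
    · intro hx
      have hmemv : x ∈ (gs H R hadj X S).verts := mem_gs_verts.mpr ⟨x, hx, (hS x hx).1⟩
      exact ⟨⟨x, hmemv⟩, hx, rfl⟩
  exact (Finset.card_image_of_injective _ Subtype.val_injective).symm.trans (congrArg card hset)

/-- Number of children in the subgraph. -/
lemma gs_card_ch [Fintype (gs H R hadj X S).verts] {d : ℕ}
    (hS : ∀ x ∈ X, IsPiece R d x (S x)) (hdis : (X : Set V).PairwiseDisjoint S)
    {R' : RF (gs H R hadj X S).verts} (h1 : ∀ z : (gs H R hadj X S).verts, R'.p z = z ↔ (z : V) ∈ X)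
    (h3 : ∀ z : (gs H R hadj X S).verts, (z : V) ∉ X → ((R'.p z : (gs H R hadj X S).verts) : V) = R.p z)
    (a : (gs H R hadj X S).verts) : (ch R' a).card = cc R (S (rt X S a)) a := by
  obtain ⟨ha1, ha2⟩ := rt_mem hdis (mem_gs_verts.mp a.2)
  unfold cc
  rw [← Finset.card_image_of_injective (ch R' a) (f := fun z : (gs H R hadj X S).verts => (z : V))
    Subtype.val_injective]
  congr 1
  ext w
  simp only [Finset.mem_image, mem_ch, Finset.mem_filter]
  constructor
  · rintro ⟨z, ⟨hz1, hz2⟩, rfl⟩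
    have hzX : (z : V) ∉ X := by
      intro hcon
      exact hz2 (((h1 z).mpr hcon).symm.trans hz1)
    have hpz : R.p z = a := by
      have h4 := h3 z hzX
      rw [hz1] at h4
      exact h4.symm
    obtain ⟨hz3, hz4⟩ := rt_mem hdis (mem_gs_verts.mp z.2)
    have hzm : (a : V) ∈ S (rt X S z) := by
      rw [← hpz]; exact (fam_par hS hz3 hz4 hzX).1
    have hrr : rt X S a = rt X S z := rt_eq hdis hz3 hzm
    rw [hrr]
    exact ⟨hz4, hpz, fun h => hz2 (Subtype.ext h)⟩
  · rintro ⟨h4, h5, h6⟩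
    have hwm : w ∈ (gs H R hadj X S).verts := mem_gs_verts.mpr ⟨rt X S a, ha1, h4⟩
    have hwX : w ∉ X := by
      intro hcon
      -- `w` would be the root of its own piece
      have h7 : rt X S a = w := fam_uniq hdis ha1 hcon h4 (hS w hcon).1
      have h8 := piece_depth_ge (hS _ ha1) ha2
      have h9 : R.p w ≠ w := by rw [h5]; exact fun h => h6 h.symm
      have h10 := R.dp_of_ne h9
      rw [h5] at h10
      rw [h7] at h8
      omega
    refine ⟨⟨w, hwm⟩, ⟨?_, fun h => h6 (congrArg Subtype.val h)⟩, rfl⟩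
    apply Subtype.ext
    rw [h3 ⟨w, hwm⟩ hwX, h5]

/-- The product of factorials in the subgraph. -/
lemma gs_prod [Fintype (gs H R hadj X S).verts] {d : ℕ}
    (hS : ∀ x ∈ X, IsPiece R d x (S x)) (hdis : (X : Set V).PairwiseDisjoint S)
    {R' : RF (gs H R hadj X S).verts} (h1 : ∀ z : (gs H R hadj X S).verts, R'.p z = z ↔ (z : V) ∈ X)
    (h3 : ∀ z : (gs H R hadj X S).verts, (z : V) ∉ X → ((R'.p z : (gs H R hadj X S).verts) : V) = R.p z) :
    ∏ a : (gs H R hadj X S).verts, (((ch R' a).card)! : ℝ) = ∏ x ∈ X, (mu R (S x) : ℝ) := by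
  have h4 : ∏ a : (gs H R hadj X S).verts, (((ch R' a).card)! : ℝ) =
      ∏ z ∈ X.biUnion S, (((cc R (S (rt X S z)) z)! : ℕ) : ℝ) := by
    rw [Finset.prod_congr rfl (fun a _ => by rw [gs_card_ch hS hdis h1 h3 a])]
    exact (Finset.prod_subtype (X.biUnion S) (fun z => by
      change z ∈ X.biUnion S ↔ z ∈ ((X.biUnion S : Finset V) : Set V)
      simp) (fun z => (((cc R (S (rt X S z)) z)! : ℕ) : ℝ))).symm
  rw [h4, Finset.prod_biUnion hdis]
  apply Finset.prod_congr rfl
  intro x hx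
  unfold mu
  push_cast
  apply Finset.prod_congr rfl
  intro z hz
  rw [rt_eq hdis hx hz]

lemma finish_arith {Nn Y A qe : ℝ} (hY0 : 0 ≤ Y) (hq0 : 0 ≤ qe) (h : Nn * Y ≤ A)
    (hE : (1 / 2 : ℝ) ≤ Nn * qe) : Y ≤ 2 * A * qe := by
  have h5 : (1 / 2 : ℝ) * Y ≤ (Nn * qe) * Y := mul_le_mul_of_nonneg_right hE hY0
  have h7 : (Nn * Y) * qe ≤ A * qe := mul_le_mul_of_nonneg_right h hq0
  nlinarith

lemma Finset.mul_prod_nonneg_aux {α : Type*} (X : Finset α) (c : ℕ) (f : α → ℕ) :
    (0 : ℝ) ≤ ((c : ℕ) : ℝ) * ∏ x ∈ X, (f x : ℝ) := by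
  positivity

/-- **The consequence of the hypothesis**: unions of disjoint pieces. -/
theorem hyp_of_subgraph (H : SimpleGraph V) (R : RF V)
    (hadj : ∀ a b, H.Adj a b ↔ a ≠ b ∧ (R.p a = b ∨ R.p b = a)) (n : ℕ) (hn : 0 < n) (q : ℝ)
    (hq : 0 ≤ q)
    (hE : ∀ G' : H.Subgraph, (1 / 2 : ℝ) ≤
      (((⊤ : SimpleGraph (Fin n)).copyCount G'.coe : ℕ) : ℝ) * q ^ (G'.coe.edgeSet.ncard)) :
    Hyp R n q := by
  intro d X S hS hdis hcard
  obtain ⟨R', h1, h2, h3⟩ := exists_RF_gs H R hadj hS hdis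
  let _ : Fintype (gs H R hadj X S).verts := Fintype.ofFinite _
  have hroot' : ∀ a, R'.p a = a → R'.dp a = 0 := fun a ha => (h2 a).mpr ((h1 a).mp ha)
  have hadj' := gs_adj_iff h1 h3
  have hnpos : 0 < Fintype.card (Fin n) := by simpa using hn
  have hmain := copyCount_le R' hroot' hadj' hnpos (⊤ : SimpleGraph (Fin n))
  have hE' := hE (gs H R hadj X S)
  have hedges := edgeSet_ncard R' hadj'
  have hcardQ := gs_card_verts (H := H) (hadj := hadj) hdis
  have hlvl : (lvl R' 0).card = X.card := by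
    rw [← gs_card_filter (H := H) (hadj := hadj) hS]
    congr 1
    ext z
    simp [lvl, h2]
  have hroots : (roots R').card = X.card := by
    rw [← gs_card_filter (H := H) (hadj := hadj) hS]
    congr 1
    ext z
    simp [roots, h1]
  have hedgecount : (gs H R hadj X S).coe.edgeSet.ncard = ∑ x ∈ X, ((S x).card - 1) := by
    rw [hedges]
    have h4 := card_roots_add R'
    rw [hroots, hcardQ] at h4
    have h5 : ∑ x ∈ X, (S x).card = ∑ x ∈ X, (1 + ((S x).card - 1)) := by
      apply Finset.sum_congr rfl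
      intro x hx
      have := hcard x hx
      omega
    rw [h5, Finset.sum_add_distrib] at h4
    simp only [Finset.sum_const, smul_eq_mul, mul_one] at h4
    omega
  rw [gs_prod hS hdis h1 h3, hlvl, hcardQ] at hmain
  rw [hedgecount] at hE'
  simp only [Fintype.card_fin] at hmain
  have hfin := finish_arith (Y := ((X.card ! : ℕ) : ℝ) * ∏ x ∈ X, (mu R (S x) : ℝ))
    (A := 4 ^ (∑ x ∈ X, (S x).card) * (n : ℝ) ^ (∑ x ∈ X, (S x).card))
    (Finset.mul_prod_nonneg_aux X _ _) (pow_nonneg hq _) (by rw [← mul_assoc]; exact hmain) hE'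
  calc _ ≤ _ := hfin
    _ = _ := by ring

end

end Vale.Agent.P064
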