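import Vale.Agent.P064.Support

/-!
# The spread inequality for forests
-/

open Finset
open scoped Classical Nat

namespace Vale.Agent.P064

noncomputable section

/-- The universal constant. -/
def LL : ℝ := 197376 * 9

lemma LL_pos : 0 < LL := by norm_num [LL]

section

variable {V W : Type*} [Fintype V] [Fintype W]

/-- The hypothesis forces `q > 0` if the host has an edge. -/
lemma q_pos_of_edge {H : SimpleGraph V} {n : ℕ} {q : ℝ} (hq0 : 0 ≤ q)
    (hE : ∀ G' : H.Subgraph, (1 / 2 : ℝ) ≤
      (((⊤ : SimpleGraph (Fin n)).copyCount G'.coe : ℕ) : ℝ) * q ^ (G'.coe.edgeSet.ncard))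
    {x y : V} (hxy : H.Adj x y) : 0 < q := by
  rcases hq0.lt_or_eq with h | h
  · exact h
  · exfalso
    have h1 := hE ⊤
    have hmem : s((⟨x, trivial⟩ : (⊤ : H.Subgraph).verts), ⟨y, trivial⟩) ∈
        (⊤ : H.Subgraph).coe.edgeSet := hxy
    have h2 : (⊤ : H.Subgraph).coe.edgeSet.ncard ≠ 0 :=
      Set.ncard_ne_zero_of_mem hmem (Set.toFinite _)
    rw [← h, zero_pow h2, mul_zero] at h1
    norm_num at h1

/-- The bound on labelled copies, in terms of the falling factorial. -/
theorem labelled_final {H : SimpleGraph V} (hH : H.IsAcyclic) {n : ℕ}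
    (hV : Fintype.card V ≤ n) {q : ℝ} (hq0 : 0 ≤ q)
    (hE : ∀ G' : H.Subgraph, (1 / 2 : ℝ) ≤
      (((⊤ : SimpleGraph (Fin n)).copyCount G'.coe : ℕ) : ℝ) * q ^ (G'.coe.edgeSet.ncard))
    (F : SimpleGraph W) (f₀ : SimpleGraph.Copy F H) (he : F.edgeSet.ncard ≠ 0) :
    (H.labelledCopyCount F : ℝ) ≤
      (LL * q) ^ F.edgeSet.ncard * (n.descFactorial (Fintype.card W) : ℝ) := by
  -- an edge of `F`
  obtain ⟨e, hedge⟩ := Set.nonempty_of_ncard_ne_zero he
  induction e using Sym2.ind with
  | _ a b =>
    have hab : F.Adj a b := hedge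
    have hq : 0 < q := q_pos_of_edge hq0 hE (f₀.toHom.map_adj hab)
    have hVpos : 0 < Fintype.card V := Fintype.card_pos_iff.mpr ⟨f₀ a⟩
    have hn : 1 ≤ n := by omega
    obtain ⟨R, _, hadj⟩ := exists_RF hH
    have hyp : Hyp R n q := hyp_of_subgraph H R hadj n (by omega) q hq0 hE
    have h1 := labelled_le H R hadj hn hV hq hyp (F.induce F.support) (f₀ a)
    rw [edges_support] at h1
    set ee := F.edgeSet.ncard with hee
    set j := Fintype.card F.support with hj
    set m := Fintype.card W - j with hm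
    have hjW : j ≤ Fintype.card W := Fintype.card_subtype_le _
    have hWV : Fintype.card W ≤ Fintype.card V := Fintype.card_le_of_injective _ f₀.injective
    have hjn : j ≤ n := by omega
    have hj2 : j ≤ 2 * ee := card_support_le F
    have h2 := labelled_le_support H F
    rw [← hj, ← hm] at h2
    have h3 : (Fintype.card V - j).descFactorial m ≤ (n - j).descFactorial m :=
      Nat.descFactorial_le _ (by omega)
    have h4 := pow_le_three_descFactorial hjn
    have h5 : n.descFactorial (Fintype.card W) = n.descFactorial j * (n - j).descFactorial m := by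
      rw [← descFactorial_add]
      congr 1
      omega
    have h6 : (3 : ℝ) ^ j ≤ 9 ^ ee := by
      calc (3 : ℝ) ^ j ≤ 3 ^ (2 * ee) := pow_le_pow_right₀ (by norm_num) hj2
        _ = 9 ^ ee := by rw [pow_mul]; norm_num
    have hq2 : 0 ≤ (197376 * q) ^ ee := by positivity
    calc (H.labelledCopyCount F : ℝ)
        ≤ ((H.labelledCopyCount (F.induce F.support) : ℝ)) *
            ((Fintype.card V - j).descFactorial m : ℝ) := by exact_mod_cast h2
      _ ≤ ((197376 * q) ^ ee * (n : ℝ) ^ j) * ((n - j).descFactorial m : ℝ) := by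
          apply mul_le_mul h1 (by exact_mod_cast h3) (Nat.cast_nonneg _) (by positivity)
      _ ≤ ((197376 * q) ^ ee * (9 ^ ee * (n.descFactorial j : ℝ))) *
            ((n - j).descFactorial m : ℝ) := by
          apply mul_le_mul_of_nonneg_right _ (Nat.cast_nonneg _)
          apply mul_le_mul_of_nonneg_left _ hq2
          exact h4.trans (mul_le_mul_of_nonneg_right h6 (Nat.cast_nonneg _))
      _ = (LL * q) ^ ee * (n.descFactorial (Fintype.card W) : ℝ) := by
          rw [h5, LL]
          push_cast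
          have : (197376 * 9 * q) ^ ee = (197376 * q) ^ ee * 9 ^ ee := by
            rw [← mul_pow]; congr 1; ring
          rw [this]
          ring

end

/-- **The spread inequality for forests.** -/
theorem spread_forest {V W : Type*} [Fintype V] [Fintype W] (n : ℕ) (H : SimpleGraph V)
    (hH : H.IsAcyclic) (hV : Fintype.card V ≤ n) (q : ℝ) (hq0 : 0 ≤ q)
    (hE : ∀ G' : H.Subgraph, (1 / 2 : ℝ) ≤
      (((⊤ : SimpleGraph (Fin n)).copyCount G'.coe : ℕ) : ℝ) * q ^ (G'.coe.edgeSet.ncard))
    (F : SimpleGraph W) :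
    (H.copyCount F : ℝ) ≤
      ((⊤ : SimpleGraph (Fin n)).copyCount F : ℝ) * (min 1 (LL * q)) ^ F.edgeSet.ncard := by
  have hmin0 : 0 ≤ min 1 (LL * q) := le_min zero_le_one (mul_nonneg LL_pos.le hq0)
  by_cases hne : Nonempty (SimpleGraph.Copy F H)
  swap
  · have h1 : H.copyCount F = 0 := by
      rw [SimpleGraph.copyCount_eq_zero]
      exact fun h => hne h
    rw [h1]
    simp only [Nat.cast_zero]
    positivity
  obtain ⟨f₀⟩ := hne
  -- the number of automorphisms
  have haut : 0 < Nat.card (F ≃g F) := Nat.card_pos_iff.mpr ⟨⟨SimpleGraph.Iso.refl⟩, inferInstance⟩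
  have hautR : (0 : ℝ) < (Nat.card (F ≃g F) : ℝ) := by exact_mod_cast haut
  set a : ℝ := (Nat.card (F ≃g F) : ℝ) with ha
  have hlab1 : (H.labelledCopyCount F : ℝ) = (H.copyCount F : ℝ) * a := by
    rw [labelled_eq]; push_cast; rfl
  have hlab2 : ((⊤ : SimpleGraph (Fin n)).labelledCopyCount F : ℝ) =
      ((⊤ : SimpleGraph (Fin n)).copyCount F : ℝ) * a := by
    rw [labelled_eq]; push_cast; rfl
  have hmain : (H.labelledCopyCount F : ℝ) ≤
      ((⊤ : SimpleGraph (Fin n)).labelledCopyCount F : ℝ) * (min 1 (LL * q)) ^ F.edgeSet.ncard := by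
    by_cases he : F.edgeSet.ncard = 0
    · rw [he, pow_zero, mul_one]
      exact_mod_cast labelled_le_top H F hV
    · by_cases hLq : 1 ≤ LL * q
      · rw [min_eq_left hLq, one_pow, mul_one]
        exact_mod_cast labelled_le_top H F hV
      · rw [min_eq_right (not_le.mp hLq).le, labelled_top, mul_comm]
        exact labelled_final hH hV hq0 hE F f₀ he
  rw [hlab1, hlab2] at hmain
  have h2 : (H.copyCount F : ℝ) * a ≤
      (((⊤ : SimpleGraph (Fin n)).copyCount F : ℝ) * (min 1 (LL * q)) ^ F.edgeSet.ncard) * a := by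
    calc _ ≤ _ := hmain
      _ = _ := by ring
  exact le_of_mul_le_mul_right h2 hautR

end

end Vale.Agent.P064
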