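import Vale.Agent.P064.HypFrom
import Vale.Agent.P064.Forest

/-!
# Orientation patterns and the bound on labelled copies
-/

open Finset
open scoped Classical Nat

namespace Vale.Agent.P064

noncomputable section

variable {V W : Type*} [Fintype V] [Fintype W]

/-- The parent in `F` of a vertex, according to the map `f`. -/
def pat (F : SimpleGraph W) (R : RF V) (f : W → V) (b : W) : W :=
  if h : ∃ a, F.Adj a b ∧ R.p (f b) = f a then h.choose else b

section

variable {F : SimpleGraph W} {R : RF V} {f : W → V}

lemma pat_spec {b : W} (h : pat F R f b ≠ b) :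
    F.Adj (pat F R f b) b ∧ R.p (f b) = f (pat F R f b) := by
  unfold pat at h ⊢
  by_cases hex : ∃ a, F.Adj a b ∧ R.p (f b) = f a
  · simp only [hex, dite_true]
    exact hex.choose_spec
  · simp [hex] at h

lemma pat_eq (hinj : Function.Injective f) {a b : W} (hab : F.Adj a b) (hp : R.p (f b) = f a) :
    pat F R f b = a := by
  unfold pat
  have hex : ∃ a, F.Adj a b ∧ R.p (f b) = f a := ⟨a, hab, hp⟩
  simp only [hex, dite_true]
  apply hinj
  rw [← hex.choose_spec.2, hp]

lemma pat_adj {H : SimpleGraph V} (hadj : ∀ a b, H.Adj a b ↔ a ≠ b ∧ (R.p a = b ∨ R.p b = a))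
    (hinj : Function.Injective f) (hhom : ∀ {a b}, F.Adj a b → H.Adj (f a) (f b)) {a b : W}
    (hab : F.Adj a b) : pat F R f b = a ∨ pat F R f a = b := by
  rcases ((hadj _ _).mp (hhom hab)).2 with h | h
  · right
    exact pat_eq hinj hab.symm h
  · left
    exact pat_eq hinj hab h

lemma pat_step (hinj : Function.Injective f) (b : W) :
    pat F R f b = b ∨ R.dp (f b) = R.dp (f (pat F R f b)) + 1 := by
  by_cases h : pat F R f b = b
  · exact Or.inl h
  · right
    obtain ⟨h1, h2⟩ := pat_spec h
    have h3 : f (pat F R f b) ≠ f b := fun h4 => h (hinj h4)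
    have h4 : R.p (f b) ≠ f b := by rw [h2]; exact h3
    have := R.dp_of_ne h4
    rwa [h2] at this

end

/-- The rooted forest structure on `W` given by a map. -/
def patRF (F : SimpleGraph W) (R : RF V) (f : W → V) (hinj : Function.Injective f) : RF W :=
  ⟨pat F R f, fun b => R.dp (f b), pat_step hinj⟩

section

variable {F : SimpleGraph W} {R : RF V} {H : SimpleGraph V}

lemma patRF_adj (hadj : ∀ a b, H.Adj a b ↔ a ≠ b ∧ (R.p a = b ∨ R.p b = a))
    {f : W → V} (hinj : Function.Injective f) (hhom : ∀ {a b}, F.Adj a b → H.Adj (f a) (f b))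
    (a b : W) : F.Adj a b ↔ a ≠ b ∧ ((patRF F R f hinj).p a = b ∨ (patRF F R f hinj).p b = a) := by
  constructor
  · intro hab
    refine ⟨hab.ne, ?_⟩
    rcases pat_adj hadj hinj hhom hab with h | h
    · exact Or.inr h
    · exact Or.inl h
  · rintro ⟨hne, h | h⟩
    · have h1 : pat F R f a ≠ a := by
        change pat F R f a = b at h
        rw [h]; exact fun h2 => hne h2.symm
      have h2 := (pat_spec h1).1
      change pat F R f a = b at h
      rw [h] at h2
      exact h2.symm
    · have h1 : pat F R f b ≠ b := by
        change pat F R f b = a at h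
        rw [h]; exact hne
      have h2 := (pat_spec h1).1
      change pat F R f b = a at h
      rw [h] at h2
      exact h2

lemma pat_not_both {f : W → V} (hinj : Function.Injective f) {a b : W}
    (h1 : pat F R f b = a) (h2 : pat F R f a = b) (hne : a ≠ b) : False := by
  have h3 := pat_step (F := F) (R := R) hinj b
  have h4 := pat_step (F := F) (R := R) hinj a
  rw [h1] at h3
  rw [h2] at h4
  rcases h3 with h3 | h3
  · exact hne h3
  · rcases h4 with h4 | h4
    · exact hne h4.symm
    · omega

/-- The edges of `F`. -/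
def edgesOf (F : SimpleGraph W) : Finset (Sym2 W) := univ.filter (fun e => e ∈ F.edgeSet)

lemma out_eq (e : Sym2 W) : s((Quot.out e).1, (Quot.out e).2) = e := Quot.out_eq e

/-- The bits recording the orientation of the edges. -/
def bits (F : SimpleGraph W) (R : RF V) (f : W → V) : Finset (Sym2 W) :=
  (edgesOf F).filter (fun e => (Quot.out e).1 = pat F R f (Quot.out e).2)

lemma pat_eq_of_bits_aux (hadj : ∀ a b, H.Adj a b ↔ a ≠ b ∧ (R.p a = b ∨ R.p b = a))
    {f f' : W → V} (hinj : Function.Injective f) (hinj' : Function.Injective f')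
    (hhom' : ∀ {a b}, F.Adj a b → H.Adj (f' a) (f' b))
    (hbits : bits F R f = bits F R f') {b : W} (hb : pat F R f b ≠ b) :
    pat F R f' b = pat F R f b := by
  set a := pat F R f b with ha
  have hab : F.Adj a b := (pat_spec hb).1
  rcases pat_adj hadj hinj' hhom' hab with h | h
  · exact h
  · exfalso
    -- the edge `a b` is oriented differently
    set e : Sym2 W := s(a, b) with he
    have heE : e ∈ edgesOf F := by
      simp only [edgesOf, Finset.mem_filter, Finset.mem_univ, true_and, he]
      exact hab
    have hout := out_eq e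
    rw [he] at hout
    rcases Sym2.eq_iff.mp hout with ⟨h1, h2⟩ | ⟨h1, h2⟩
    · -- out = (a, b)
      have hin : e ∈ bits F R f := by
        refine Finset.mem_filter.mpr ⟨heE, ?_⟩
        rw [he, h1, h2]
      rw [hbits] at hin
      have h3 := (Finset.mem_filter.mp hin).2
      rw [he, h1, h2] at h3
      exact pat_not_both hinj' h3.symm h hab.ne
    · -- out = (b, a)
      have hin : e ∈ bits F R f' := by
        refine Finset.mem_filter.mpr ⟨heE, ?_⟩
        rw [he, h1, h2]
        exact h.symm
      rw [← hbits] at hin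
      have h3 := (Finset.mem_filter.mp hin).2
      rw [he, h1, h2] at h3
      exact pat_not_both hinj ha.symm h3.symm hab.ne

lemma pat_eq_of_bits (hadj : ∀ a b, H.Adj a b ↔ a ≠ b ∧ (R.p a = b ∨ R.p b = a))
    {f f' : W → V} (hinj : Function.Injective f) (hinj' : Function.Injective f')
    (hhom : ∀ {a b}, F.Adj a b → H.Adj (f a) (f b))
    (hhom' : ∀ {a b}, F.Adj a b → H.Adj (f' a) (f' b))
    (hbits : bits F R f = bits F R f') : pat F R f = pat F R f' := by
  funext b
  by_cases h : pat F R f b = b
  · by_cases h' : pat F R f' b = b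
    · rw [h, h']
    · exact (pat_eq_of_bits_aux hadj hinj' hinj hhom hbits.symm h')
  · exact (pat_eq_of_bits_aux hadj hinj hinj' hhom' hbits h).symm

end

lemma card_image_le_of_factor {α β γ : Type*} [DecidableEq β] [DecidableEq γ]
    (s : Finset α) (a : α → β) (b : α → γ)
    (h : ∀ x ∈ s, ∀ y ∈ s, b x = b y → a x = a y) : (s.image a).card ≤ (s.image b).card := by
  rcases s.eq_empty_or_nonempty with rfl | ⟨x₀, _⟩
  · simp
  haveI : Nonempty α := ⟨x₀⟩
  have hex : ∀ z ∈ s.image a, ∃ x ∈ s, a x = z := fun z hz => Finset.mem_image.mp hz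
  choose! pick hpick1 hpick2 using hex
  apply Finset.card_le_card_of_injOn (fun z => b (pick z))
  · intro z hz
    exact Finset.mem_coe.mpr (Finset.mem_image_of_mem b (hpick1 z hz))
  · intro z hz z' hz' hEq
    have := h _ (hpick1 z hz) _ (hpick1 z' hz') hEq
    rw [hpick2 z hz, hpick2 z' hz'] at this
    exact this

lemma card_edgesOf (F : SimpleGraph W) : (edgesOf F).card = F.edgeSet.ncard := by
  rw [← Set.ncard_coe_finset]
  congr 1
  ext e
  simp [edgesOf]

/-- **The bound on labelled copies.** -/
theorem labelled_le (H : SimpleGraph V) (R : RF V)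
    (hadj : ∀ a b, H.Adj a b ↔ a ≠ b ∧ (R.p a = b ∨ R.p b = a)) {n : ℕ} (hn : 1 ≤ n)
    (hV : Fintype.card V ≤ n) {q : ℝ} (hq : 0 < q) (hyp : Hyp R n q) (F : SimpleGraph W) (x₀ : V) :
    (H.labelledCopyCount F : ℝ) ≤ (197376 * q) ^ F.edgeSet.ncard * (n : ℝ) ^ Fintype.card W := by
  set e := F.edgeSet.ncard with he
  have hnR : (1 : ℝ) ≤ n := by exact_mod_cast hn
  have hn0 : (0 : ℝ) < n := by linarith
  let _ : Fintype (SimpleGraph.Copy F H) := Fintype.ofFinite _
  have h1 : H.labelledCopyCount F = (univ : Finset (SimpleGraph.Copy F H)).card := by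
    rw [Finset.card_univ, ← Nat.card_eq_fintype_card]
    exact labelled_eq_natCard H F
  let patf : SimpleGraph.Copy F H → W → W := fun f => pat F R f
  -- each fibre is small
  have hfib : ∀ π ∈ (univ : Finset (SimpleGraph.Copy F H)).image patf,
      (((univ : Finset (SimpleGraph.Copy F H)).filter (fun f => patf f = π)).card : ℝ) ≤
        (16 * (8 * n * q) * 771) ^ e * (n : ℝ) ^ (Fintype.card W - e) := by
    intro π hπ
    obtain ⟨f₀, _, rfl⟩ := Finset.mem_image.mp hπ
    set P := patRF F R f₀ f₀.injective with hP
    have hadjP := patRF_adj (F := F) (R := R) (H := H) hadj (f := f₀) f₀.injective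
      (fun hab => f₀.toHom.map_adj hab)
    have hedges : (nonroots P).card = e := (edgeSet_ncard P hadjP).symm
    have hroots : (roots P).card = Fintype.card W - e := by
      have := card_roots_add P
      omega
    have hW0 : 0 < 8 * (n : ℝ) * q := by positivity
    have hfinal := card_Val_le_final P R x₀ hW0 n (B := 771) (by norm_num)
      (fun d => sum_U_le hyp hn hV hq d)
    rw [hedges, hroots] at hfinal
    refine le_trans ?_ hfinal
    have hcard : ((univ : Finset (SimpleGraph.Copy F H)).filter (fun f => patf f = patf f₀)).card ≤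
        (Val P R).card := by
      apply Finset.card_le_card_of_injOn (fun f : SimpleGraph.Copy F H => (f : W → V))
      · intro f hf
        have hf' : patf f = patf f₀ := (Finset.mem_filter.mp (Finset.mem_coe.mp hf)).2
        refine Finset.mem_coe.mpr (mem_Val.mpr ⟨?_, ?_⟩)
        · intro b hb
          have hb2 : pat F R f b ≠ b := by
            have : pat F R f b = pat F R f₀ b := congrFun hf' b
            rw [this]; exact hb
          obtain ⟨h3, h4⟩ := pat_spec hb2
          have h5 : pat F R f b = P.p b := congrFun hf' b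
          rw [h5] at h3 h4
          refine ⟨h4, fun h6 => ?_⟩
          exact hb (f.injective h6).symm
        · intro c
          exact f.injective.injOn
      · intro f _ f' _ h
        exact DFunLike.coe_injective h
    exact_mod_cast hcard
  -- the number of patterns
  have hpat : (((univ : Finset (SimpleGraph.Copy F H)).image patf).card : ℝ) ≤ 2 ^ e := by
    have h2 : ((univ : Finset (SimpleGraph.Copy F H)).image patf).card ≤
        ((univ : Finset (SimpleGraph.Copy F H)).image (fun f : SimpleGraph.Copy F H => bits F R f)).card := by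
      apply card_image_le_of_factor
      intro f _ f' _ hb
      exact pat_eq_of_bits hadj f.injective f'.injective
        (fun hab => f.toHom.map_adj hab) (fun hab => f'.toHom.map_adj hab) hb
    have h3 : (univ : Finset (SimpleGraph.Copy F H)).image (fun f : SimpleGraph.Copy F H => bits F R f) ⊆
        (edgesOf F).powerset := by
      intro O hO
      obtain ⟨f, _, rfl⟩ := Finset.mem_image.mp hO
      exact Finset.mem_powerset.mpr (Finset.filter_subset _ _)
    have h4 := Finset.card_le_card h3
    rw [Finset.card_powerset, card_edgesOf] at h4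
    exact_mod_cast h2.trans h4
  have htotal : (H.labelledCopyCount F : ℝ) ≤
      2 ^ e * ((16 * (8 * n * q) * 771) ^ e * (n : ℝ) ^ (Fintype.card W - e)) := by
    rw [h1, Finset.card_eq_sum_card_image patf]
    push_cast
    calc _ ≤ ∑ _π ∈ (univ : Finset (SimpleGraph.Copy F H)).image patf,
          ((16 * (8 * n * q) * 771) ^ e * (n : ℝ) ^ (Fintype.card W - e)) :=
          Finset.sum_le_sum hfib
      _ = (((univ : Finset (SimpleGraph.Copy F H)).image patf).card : ℝ) *
          ((16 * (8 * n * q) * 771) ^ e * (n : ℝ) ^ (Fintype.card W - e)) := by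
          rw [Finset.sum_const, nsmul_eq_mul]
      _ ≤ _ := mul_le_mul_of_nonneg_right hpat (by positivity)
  by_cases hne : Nonempty (SimpleGraph.Copy F H)
  · obtain ⟨f₀⟩ := hne
    have hadjP := patRF_adj (F := F) (R := R) (H := H) hadj (f := f₀) f₀.injective
      (fun hab => f₀.toHom.map_adj hab)
    have hle : e ≤ Fintype.card W := by
      rw [he, edgeSet_ncard _ hadjP]
      exact Finset.card_le_univ _
    refine htotal.trans ?_
    have h5 : (n : ℝ) ^ Fintype.card W = (n : ℝ) ^ e * (n : ℝ) ^ (Fintype.card W - e) := by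
      rw [← pow_add]; congr 1; omega
    rw [h5]
    have h6 : (197376 * q) ^ e * (n : ℝ) ^ e = 2 ^ e * (16 * (8 * n * q) * 771) ^ e := by
      rw [← mul_pow, ← mul_pow]; congr 1; ring
    calc _ = (2 ^ e * (16 * (8 * n * q) * 771) ^ e) * (n : ℝ) ^ (Fintype.card W - e) :=
          (mul_assoc _ _ _).symm
      _ = ((197376 * q) ^ e * (n : ℝ) ^ e) * (n : ℝ) ^ (Fintype.card W - e) := by rw [h6]
      _ = _ := mul_assoc _ _ _
      _ ≤ _ := le_rfl
  · -- no copies at all
    have h7 : H.labelledCopyCount F = 0 := by
      rw [h1, Finset.card_eq_zero, Finset.univ_eq_empty_iff]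
      exact not_nonempty_iff.mp hne
    rw [h7]
    simp only [Nat.cast_zero]
    positivity

end

end Vale.Agent.P064
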