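import Vale.Agent.P064.RF

/-!
# Counting parent-preserving maps by peeling
-/

open Finset
open scoped Classical Nat

namespace Vale.Agent.P064

noncomputable section

variable {T V : Type*} [Fintype T] [Fintype V]

/-- Descendants of `a`, including `a`. -/
def Sub (P : RF T) (a : T) : Finset T :=
  univ.filter (fun b => ∃ i, P.p^[i] b = a ∧ P.dp b = P.dp a + i)

lemma mem_Sub {P : RF T} {a b : T} : b ∈ Sub P a ↔ ∃ i, P.p^[i] b = a ∧ P.dp b = P.dp a + i := by
  simp [Sub]

lemma self_mem_Sub (P : RF T) (a : T) : a ∈ Sub P a := mem_Sub.mpr ⟨0, rfl, rfl⟩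

lemma Sub_nonempty (P : RF T) (a : T) : 0 < (Sub P a).card :=
  Finset.card_pos.mpr ⟨a, self_mem_Sub P a⟩

lemma Sub_subset_of_ch {P : RF T} {a b : T} (h : b ∈ ch P a) : Sub P b ⊆ Sub P a := by
  intro c hc
  obtain ⟨i, h1, h2⟩ := mem_Sub.mp hc
  have hd := dp_of_mem_ch h
  refine mem_Sub.mpr ⟨i + 1, ?_, by omega⟩
  rw [iterate_succ_eq, h1]
  exact (mem_ch.mp h).1

lemma notMem_Sub_ch {P : RF T} {a b : T} (h : b ∈ ch P a) : a ∉ Sub P b := by
  intro ha
  obtain ⟨i, _, h2⟩ := mem_Sub.mp ha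
  have hd := dp_of_mem_ch h
  omega

omit [Fintype T] in
lemma dp_iterate (P : RF T) (j : ℕ) (c : T) : P.dp c ≤ P.dp (P.p^[j] c) + j := by
  induction j with
  | zero => simp
  | succ j ih =>
    rw [Function.iterate_succ_apply']
    have := P.le_dp_add (P.p^[j] c)
    omega

lemma exists_ch_of_mem_Sub {P : RF T} {a c : T} (hc : c ∈ Sub P a) (hne : c ≠ a) :
    ∃ b ∈ ch P a, c ∈ Sub P b := by
  obtain ⟨i, h1, h2⟩ := mem_Sub.mp hc
  rcases i with _ | j
  · exact absurd h1 hne
  · have hb : P.p (P.p^[j] c) = a := by rw [← iterate_succ_eq]; exact h1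
    have hle := dp_iterate P j c
    have hdpb : P.dp (P.p^[j] c) = P.dp a + 1 := by
      have hle2 := P.le_dp_add (P.p^[j] c)
      rw [hb] at hle2
      omega
    refine ⟨P.p^[j] c, mem_ch.mpr ⟨hb, ?_⟩, mem_Sub.mpr ⟨j, rfl, by omega⟩⟩
    intro h
    rw [h] at hdpb
    omega

lemma Sub_disjoint {P : RF T} {a b b' : T} (h : b ∈ ch P a) (h' : b' ∈ ch P a) (hne : b ≠ b') :
    Disjoint (Sub P b) (Sub P b') := by
  rw [Finset.disjoint_left]
  intro c hc hc'
  obtain ⟨i, h1, h2⟩ := mem_Sub.mp hc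
  obtain ⟨i', h1', h2'⟩ := mem_Sub.mp hc'
  have hd := dp_of_mem_ch h
  have hd' := dp_of_mem_ch h'
  exact hne (eq_of_same_depth h1 h2 h1' h2' (by omega))

lemma parent_mem_Sub {P : RF T} {a c : T} (hc : c ∈ Sub P a) (hne : c ≠ a) :
    P.p c ∈ Sub P a ∧ P.p c ≠ c := by
  obtain ⟨i, h1, h2⟩ := mem_Sub.mp hc
  obtain ⟨j, _, h3, h4, h5⟩ := chain_step h1 h2 hne
  exact ⟨mem_Sub.mpr ⟨j, h4, h5⟩, h3⟩

lemma ch_subset_Sub {P : RF T} {a c : T} (hc : c ∈ Sub P a) : ch P c ⊆ Sub P a := by
  intro y hy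
  obtain ⟨i, h1, h2⟩ := mem_Sub.mp hc
  have hd := dp_of_mem_ch hy
  refine mem_Sub.mpr ⟨i + 1, ?_, by omega⟩
  rw [Function.iterate_succ_apply, (mem_ch.mp hy).1, h1]

lemma Sub_eq_insert (P : RF T) (a : T) : Sub P a = insert a ((ch P a).biUnion (Sub P)) := by
  ext c
  simp only [Finset.mem_insert, Finset.mem_biUnion]
  constructor
  · intro hc
    by_cases hca : c = a
    · exact Or.inl hca
    · exact Or.inr (exists_ch_of_mem_Sub hc hca)
  · rintro (rfl | ⟨b, hb, hc⟩)
    · exact self_mem_Sub P c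
    · exact Sub_subset_of_ch hb hc

lemma card_Sub (P : RF T) (a : T) :
    (Sub P a).card = 1 + ∑ b ∈ ch P a, (Sub P b).card := by
  conv_lhs => rw [Sub_eq_insert]
  rw [Finset.card_insert_of_notMem, Finset.card_biUnion]
  · ring
  · intro b hb b' hb' hne
    exact Sub_disjoint hb hb' hne
  · intro ha
    obtain ⟨b, hb, h⟩ := Finset.mem_biUnion.mp ha
    exact notMem_Sub_ch hb h

/-- Parent-preserving maps on the subtree at `a`, sending `a` to `x`, and everything else to `x₀`. -/
def Phi (P : RF T) (R : RF V) (x₀ : V) (a : T) (x : V) : Finset (T → V) :=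
  univ.filter (fun f => f a = x ∧ (∀ c, c ∉ Sub P a → f c = x₀) ∧
    (∀ b ∈ Sub P a, b ≠ a → R.p (f b) = f (P.p b) ∧ f b ≠ f (P.p b)) ∧
    (∀ c ∈ Sub P a, Set.InjOn f (ch P c)))

lemma mem_Phi {P : RF T} {R : RF V} {x₀ : V} {a : T} {x : V} {f : T → V} :
    f ∈ Phi P R x₀ a x ↔ f a = x ∧ (∀ c, c ∉ Sub P a → f c = x₀) ∧
    (∀ b ∈ Sub P a, b ≠ a → R.p (f b) = f (P.p b) ∧ f b ≠ f (P.p b)) ∧
    (∀ c ∈ Sub P a, Set.InjOn f (ch P c)) := by
  simp [Phi]

omit [Fintype V] in
lemma card_box {α : Type*} (K : Finset T) (f : T → Finset α) (z : α) :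
    (Fintype.piFinset (fun b => if b ∈ K then f b else ({z} : Finset α))).card =
      ∏ b ∈ K, (f b).card := by
  rw [Fintype.card_piFinset]
  have : ∀ b : T, ((if b ∈ K then f b else ({z} : Finset α))).card =
      if b ∈ K then (f b).card else 1 := by
    intro b; split_ifs <;> simp
  simp only [this]
  rw [Finset.prod_ite_mem, Finset.univ_inter]

/-- Restriction of `f` to the subtree at `b`. -/
def restr (P : RF T) (x₀ : V) (f : T → V) (b : T) : T → V :=
  fun c => if c ∈ Sub P b then f c else x₀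

lemma restr_mem_Phi {P : RF T} {R : RF V} {x₀ : V} {b : T} {f : T → V}
    (hval : ∀ b' ∈ Sub P b, b' ≠ b → R.p (f b') = f (P.p b') ∧ f b' ≠ f (P.p b'))
    (hinj : ∀ c ∈ Sub P b, Set.InjOn f (ch P c)) :
    restr P x₀ f b ∈ Phi P R x₀ b (f b) := by
  refine mem_Phi.mpr ⟨?_, ?_, ?_, ?_⟩
  · simp [restr, self_mem_Sub]
  · intro c hc
    simp [restr, hc]
  · intro b' hb' hne
    have hpar := (parent_mem_Sub hb' hne).1
    simp only [restr, hb', hpar, if_true]
    exact hval b' hb' hne
  · intro c hc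
    intro y hy y' hy' h
    have h1 := ch_subset_Sub hc hy
    have h2 := ch_subset_Sub hc hy'
    simp only [restr, h1, h2, if_true] at h
    exact hinj c hc hy hy' h

/-- One level of the recursion. -/
lemma card_Phi_le_sum (P : RF T) (R : RF V) (x₀ : V) (a : T) (x : V) :
    ((Phi P R x₀ a x).card : ℝ) ≤
      ∑ ψ ∈ Inj (ch P a) (ch R x) x₀, ∏ b ∈ ch P a, ((Phi P R x₀ b (ψ b)).card : ℝ) := by
  set K := ch P a with hK
  set D := ch R x with hD
  let Ψ : (T → V) → T → V := fun f b => if b ∈ K then f b else x₀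
  have hmaps : ∀ f ∈ Phi P R x₀ a x, Ψ f ∈ Inj K D x₀ := by
    intro f hf
    obtain ⟨h1, _, h3, h4⟩ := mem_Phi.mp hf
    refine Finset.mem_filter.mpr ⟨?_, ?_⟩
    · refine Fintype.mem_piFinset.mpr ?_
      intro b
      by_cases hb : b ∈ K
      · simp only [Ψ, hb, if_true]
        obtain ⟨hpb, hne⟩ := mem_ch.mp hb
        have hbsub : b ∈ Sub P a := ch_subset_Sub (self_mem_Sub P a) hb
        obtain ⟨h5, h6⟩ := h3 b hbsub hne
        rw [hpb, h1] at h5 h6
        exact mem_ch.mpr ⟨h5, h6⟩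
      · simp [Ψ, hb]
    · intro b hb b' hb' h
      have hb1 : b ∈ K := hb
      have hb2 : b' ∈ K := hb'
      simp only [Ψ, hb1, hb2, if_true] at h
      exact h4 a (self_mem_Sub P a) hb hb' h
  have hfib : ∀ ψ ∈ Inj K D x₀, ((Phi P R x₀ a x).filter (fun f => Ψ f = ψ)).card ≤
      ∏ b ∈ K, (Phi P R x₀ b (ψ b)).card := by
    intro ψ _
    rw [← card_box K (fun b => Phi P R x₀ b (ψ b)) (fun _ => x₀)]
    let Ξ : (T → V) → T → T → V := fun f b =>
      if b ∈ K then restr P x₀ f b else fun _ => x₀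
    apply Finset.card_le_card_of_injOn Ξ
    · intro f hf
      have hf' := Finset.mem_coe.mp hf
      obtain ⟨hf1, hf2⟩ := Finset.mem_filter.mp hf'
      obtain ⟨h1, _, h3, h4⟩ := mem_Phi.mp hf1
      refine Finset.mem_coe.mpr (Fintype.mem_piFinset.mpr ?_)
      intro b
      by_cases hb : b ∈ K
      · simp only [Ξ, hb, if_true]
        have hψb : ψ b = f b := by
          rw [← hf2]; simp [Ψ, hb]
        rw [hψb]
        have hsub := Sub_subset_of_ch hb
        refine restr_mem_Phi ?_ ?_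
        · intro b' hb' _
          refine h3 b' (hsub hb') ?_
          rintro rfl
          exact notMem_Sub_ch hb hb'
        · intro c hc
          exact h4 c (hsub hc)
      · simp [Ξ, hb]
    · intro f hf f' hf' hEq
      have hf1 := Finset.mem_coe.mp hf
      have hf1' := Finset.mem_coe.mp hf'
      obtain ⟨h1, h2, _, _⟩ := mem_Phi.mp (Finset.mem_filter.mp hf1).1
      obtain ⟨h1', h2', _, _⟩ := mem_Phi.mp (Finset.mem_filter.mp hf1').1
      funext c
      by_cases hc : c ∈ Sub P a
      · by_cases hca : c = a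
        · rw [hca, h1, h1']
        · obtain ⟨b, hb, hcb⟩ := exists_ch_of_mem_Sub hc hca
          have hb' : b ∈ K := hb
          have := congrFun (congrFun hEq b) c
          simpa [Ξ, hb', restr, hcb] using this
      · rw [h2 c hc, h2' c hc]
  have hcard : (Phi P R x₀ a x).card =
      ∑ ψ ∈ Inj K D x₀, ((Phi P R x₀ a x).filter (fun f => Ψ f = ψ)).card :=
    Finset.card_eq_sum_card_fiberwise (fun f hf => hmaps f hf)
  rw [hcard]
  push_cast
  apply Finset.sum_le_sum
  intro ψ hψ
  exact_mod_cast hfib ψ hψ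

/-- The bound on the number of maps on a subtree. -/
theorem card_Phi_le (P : RF T) (R : RF V) (x₀ : V) {W : ℝ} (hW : 0 < W) :
    ∀ (n : ℕ) (a : T), (Sub P a).card = n → ∀ x,
      ((Phi P R x₀ a x).card : ℝ) ≤ (16 * W) ^ (n - 1) * U R W (n - 1) x := by
  intro n
  induction n using Nat.strong_induction_on with
  | _ n ih =>
    intro a ha x
    have h0 := card_Phi_le_sum P R x₀ a x
    refine h0.trans ?_
    set K := ch P a with hK
    have hn : n - 1 = ∑ b ∈ K, (Sub P b).card := by
      rw [← ha, card_Sub]; simp [hK]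
    by_cases hKe : K = ∅
    · have hn0 : n - 1 = 0 := by rw [hn, hKe]; simp
      rw [hn0, pow_zero, one_mul, U_zero, hKe]
      simp only [Finset.prod_empty, Finset.sum_const, nsmul_eq_mul, mul_one]
      have := card_inj_le (∅ : Finset T) (ch R x) x₀
      simp only [Finset.card_empty, pow_zero] at this
      exact_mod_cast this
    · -- the children
      have hKne : K.Nonempty := Finset.nonempty_iff_ne_empty.mpr hKe
      obtain ⟨b₀, hb₀⟩ := hKne
      have hpos : 0 < n - 1 := by
        rw [hn]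
        exact Finset.sum_pos' (fun _ _ => Nat.zero_le _) ⟨b₀, hb₀, Sub_nonempty P b₀⟩
      obtain ⟨d, hd⟩ : ∃ d, n - 1 = d + 1 := ⟨n - 2, by omega⟩
      have hle : ∀ b ∈ K, (Sub P b).card - 1 ≤ d := by
        intro b hb
        have : (Sub P b).card ≤ ∑ b ∈ K, (Sub P b).card :=
          Finset.single_le_sum (f := fun b => (Sub P b).card) (fun _ _ => Nat.zero_le _) hb
        omega
      have hlt : ∀ b ∈ K, (Sub P b).card < n := by
        intro b hb
        have : (Sub P b).card ≤ ∑ b ∈ K, (Sub P b).card :=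
          Finset.single_le_sum (f := fun b => (Sub P b).card) (fun _ _ => Nat.zero_le _) hb
        omega
      have h16 : (0 : ℝ) < 16 * W := by positivity
      have hterm : ∀ ψ ∈ Inj K (ch R x) x₀, ∏ b ∈ K, ((Phi P R x₀ b (ψ b)).card : ℝ) ≤
          (16 * W) ^ (∑ b ∈ K, ((Sub P b).card - 1)) * ∏ b ∈ K, U R W d (ψ b) := by
        intro ψ _
        rw [← Finset.prod_pow_eq_pow_sum, ← Finset.prod_mul_distrib]
        apply Finset.prod_le_prod
        · intro b _; positivity
        · intro b hb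
          have h1 := ih _ (hlt b hb) b rfl (ψ b)
          refine h1.trans ?_
          apply mul_le_mul_of_nonneg_left _ (by positivity)
          exact U_mono R W (hle b hb) _
      have hsumcard : K.card + ∑ b ∈ K, ((Sub P b).card - 1) = n - 1 := by
        rw [hn]
        have : ∑ b ∈ K, (Sub P b).card = ∑ b ∈ K, (1 + ((Sub P b).card - 1)) := by
          apply Finset.sum_congr rfl
          intro b _
          have := Sub_nonempty P b
          omega
        rw [this, Finset.sum_add_distrib]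
        simp
      calc ∑ ψ ∈ Inj K (ch R x) x₀, ∏ b ∈ K, ((Phi P R x₀ b (ψ b)).card : ℝ)
          ≤ ∑ ψ ∈ Inj K (ch R x) x₀,
              (16 * W) ^ (∑ b ∈ K, ((Sub P b).card - 1)) * ∏ b ∈ K, U R W d (ψ b) :=
            Finset.sum_le_sum hterm
        _ = (16 * W) ^ (∑ b ∈ K, ((Sub P b).card - 1)) *
              ∑ ψ ∈ Inj K (ch R x) x₀, ∏ b ∈ K, U R W d (ψ b) := by
            rw [Finset.mul_sum]
        _ ≤ (16 * W) ^ (∑ b ∈ K, ((Sub P b).card - 1)) *
              ((16 * W) ^ K.card * U R W (d + 1) x) :=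
            mul_le_mul_of_nonneg_left (step_U R hW d x K x₀) (by positivity)
        _ = (16 * W) ^ (n - 1) * U R W (n - 1) x := by
            have h3 : (16 * W) ^ (∑ b ∈ K, ((Sub P b).card - 1)) *
                ((16 * W) ^ K.card * U R W (d + 1) x) =
                (16 * W) ^ (K.card + ∑ b ∈ K, ((Sub P b).card - 1)) * U R W (d + 1) x := by
              rw [pow_add]; ring
            rw [h3, hsumcard, hd]

/-- The roots of a rooted forest. -/
def roots (P : RF T) : Finset T := univ.filter (fun r => P.p r = r)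

lemma mem_roots {P : RF T} {r : T} : r ∈ roots P ↔ P.p r = r := by simp [roots]

/-- Every vertex is below a root. -/
lemma exists_root (P : RF T) (c : T) : ∃ r ∈ roots P, c ∈ Sub P r := by
  induction hd : P.dp c using Nat.strong_induction_on generalizing c with
  | _ d ih =>
    by_cases hc : P.p c = c
    · exact ⟨c, mem_roots.mpr hc, self_mem_Sub P c⟩
    · have h1 := P.dp_of_ne hc
      obtain ⟨r, hr, hsub⟩ := ih (P.dp (P.p c)) (by omega) (P.p c) rfl
      refine ⟨r, hr, ?_⟩
      obtain ⟨i, h2, h3⟩ := mem_Sub.mp hsub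
      exact mem_Sub.mpr ⟨i + 1, by rw [Function.iterate_succ_apply]; exact h2, by omega⟩

omit [Fintype T] in
lemma iterate_root {P : RF T} {r : T} (h : P.p r = r) (k : ℕ) : P.p^[k] r = r := by
  induction k with
  | zero => rfl
  | succ k ih => rw [Function.iterate_succ_apply', ih, h]

lemma Sub_roots_disjoint {P : RF T} {r r' : T} (hr : r ∈ roots P) (hr' : r' ∈ roots P)
    (hne : r ≠ r') : Disjoint (Sub P r) (Sub P r') := by
  rw [Finset.disjoint_left]
  intro c hc hc'
  obtain ⟨i, h1, _⟩ := mem_Sub.mp hc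
  obtain ⟨i', h1', _⟩ := mem_Sub.mp hc'
  apply hne
  rcases le_total i i' with h | h
  · obtain ⟨k, rfl⟩ := Nat.exists_eq_add_of_le h
    rw [add_comm, Function.iterate_add_apply, h1, iterate_root (mem_roots.mp hr)] at h1'
    exact h1'
  · obtain ⟨k, rfl⟩ := Nat.exists_eq_add_of_le h
    rw [add_comm, Function.iterate_add_apply, h1', iterate_root (mem_roots.mp hr')] at h1
    exact h1.symm

lemma sum_Sub_roots (P : RF T) : ∑ r ∈ roots P, (Sub P r).card = Fintype.card T := by
  rw [← Finset.card_biUnion, ← Finset.card_univ]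
  · congr 1
    ext c
    simp only [Finset.mem_biUnion, Finset.mem_univ, iff_true]
    exact exists_root P c
  · intro r hr r' hr' hne
    exact Sub_roots_disjoint hr hr' hne

/-- The non-root vertices. -/
def nonroots (P : RF T) : Finset T := univ.filter (fun r => P.p r ≠ r)

lemma card_roots_add (P : RF T) : (roots P).card + (nonroots P).card = Fintype.card T := by
  unfold roots nonroots
  rw [Finset.card_filter_add_card_filter_not, Finset.card_univ]

lemma sum_e_roots (P : RF T) : ∑ r ∈ roots P, ((Sub P r).card - 1) = (nonroots P).card := by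
  have h1 := sum_Sub_roots P
  have h2 := card_roots_add P
  have h3 : ∑ r ∈ roots P, (Sub P r).card = ∑ r ∈ roots P, (1 + ((Sub P r).card - 1)) := by
    apply Finset.sum_congr rfl
    intro b _
    have := Sub_nonempty P b
    omega
  rw [h3, Finset.sum_add_distrib] at h1
  simp only [Finset.sum_const, smul_eq_mul, mul_one] at h1
  omega

/-- All parent-preserving, sibling-injective maps. -/
def Val (P : RF T) (R : RF V) : Finset (T → V) :=
  univ.filter (fun f => (∀ b, P.p b ≠ b → R.p (f b) = f (P.p b) ∧ f b ≠ f (P.p b)) ∧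
    ∀ c, Set.InjOn f (ch P c))

lemma mem_Val {P : RF T} {R : RF V} {f : T → V} :
    f ∈ Val P R ↔ (∀ b, P.p b ≠ b → R.p (f b) = f (P.p b) ∧ f b ≠ f (P.p b)) ∧
      ∀ c, Set.InjOn f (ch P c) := by
  simp [Val]

/-- The product bound over roots. -/
lemma card_Val_le (P : RF T) (R : RF V) (x₀ : V) :
    ((Val P R).card : ℝ) ≤ ∏ r ∈ roots P, ∑ x, ((Phi P R x₀ r x).card : ℝ) := by
  have hmain : (Val P R).card ≤ ∏ r ∈ roots P, (univ.biUnion (Phi P R x₀ r)).card := by
    rw [← card_box (roots P) (fun r => univ.biUnion (Phi P R x₀ r)) (fun _ => x₀)]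
    let Ξ : (T → V) → T → T → V := fun f b =>
      if b ∈ roots P then restr P x₀ f b else fun _ => x₀
    apply Finset.card_le_card_of_injOn Ξ
    · intro f hf
      obtain ⟨h3, h4⟩ := mem_Val.mp (Finset.mem_coe.mp hf)
      refine Finset.mem_coe.mpr (Fintype.mem_piFinset.mpr ?_)
      intro b
      by_cases hb : b ∈ roots P
      · simp only [Ξ, hb, if_true]
        refine Finset.mem_biUnion.mpr ⟨f b, Finset.mem_univ _, ?_⟩
        refine restr_mem_Phi ?_ ?_
        · intro b' hb' hne
          exact h3 b' (parent_mem_Sub hb' hne).2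
        · intro c _
          exact h4 c
      · simp [Ξ, hb]
    · intro f _ f' _ hEq
      funext c
      obtain ⟨r, hr, hcr⟩ := exists_root P c
      have := congrFun (congrFun hEq r) c
      simpa [Ξ, hr, restr, hcr] using this
  calc ((Val P R).card : ℝ) ≤ ((∏ r ∈ roots P, (univ.biUnion (Phi P R x₀ r)).card : ℕ) : ℝ) := by
        exact_mod_cast hmain
    _ = ∏ r ∈ roots P, ((univ.biUnion (Phi P R x₀ r)).card : ℝ) := by push_cast; rfl
    _ ≤ ∏ r ∈ roots P, ∑ x, ((Phi P R x₀ r x).card : ℝ) := by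
        apply Finset.prod_le_prod
        · intro r _; positivity
        · intro r _
          exact_mod_cast Finset.card_biUnion_le

/-- The final count of valid maps, given a bound on the total potential. -/
theorem card_Val_le_final (P : RF T) (R : RF V) (x₀ : V) {W : ℝ} (hW : 0 < W) (n : ℕ) {B : ℝ}
    (hB0 : 0 ≤ B) (hB : ∀ d, ∑ x, U R W d x ≤ n * B ^ d) :
    ((Val P R).card : ℝ) ≤ (16 * W * B) ^ (nonroots P).card * (n : ℝ) ^ (roots P).card := by
  refine (card_Val_le P R x₀).trans ?_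
  rw [← sum_e_roots P, ← Finset.prod_pow_eq_pow_sum, ← Finset.prod_const,
    ← Finset.prod_mul_distrib]
  apply Finset.prod_le_prod
  · intro r _; positivity
  · intro r _
    have h1 : ∀ x, ((Phi P R x₀ r x).card : ℝ) ≤
        (16 * W) ^ ((Sub P r).card - 1) * U R W ((Sub P r).card - 1) x :=
      fun x => card_Phi_le P R x₀ hW _ r rfl x
    calc ∑ x, ((Phi P R x₀ r x).card : ℝ)
        ≤ ∑ x, (16 * W) ^ ((Sub P r).card - 1) * U R W ((Sub P r).card - 1) x :=
          Finset.sum_le_sum (fun x _ => h1 x)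
      _ = (16 * W) ^ ((Sub P r).card - 1) * ∑ x, U R W ((Sub P r).card - 1) x := by
          rw [Finset.mul_sum]
      _ ≤ (16 * W) ^ ((Sub P r).card - 1) * (n * B ^ ((Sub P r).card - 1)) :=
          mul_le_mul_of_nonneg_left (hB _) (by positivity)
      _ = (16 * W * B) ^ ((Sub P r).card - 1) * n := by
          rw [mul_pow]; ring

end

end Vale.Agent.P064
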