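import Vale.Agent.P064.Step

/-!
# Rooted forests, pieces and the potential
-/

open Finset
open scoped Classical Nat

namespace Vale.Agent.P064

noncomputable section

/-- A rooted forest given by a parent map (roots are the fixed points) and a depth function. -/
structure RF (V : Type*) where
  p : V → V
  dp : V → ℕ
  hp : ∀ a, p a = a ∨ dp a = dp (p a) + 1

variable {V : Type*} [Fintype V]

/-- The children of `x`. -/
def ch (R : RF V) (x : V) : Finset V := univ.filter (fun y => R.p y = x ∧ y ≠ x)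

omit [Fintype V] in
lemma RF.dp_of_ne (R : RF V) {a : V} (h : R.p a ≠ a) : R.dp a = R.dp (R.p a) + 1 :=
  (R.hp a).resolve_left h

omit [Fintype V] in
lemma RF.dp_le (R : RF V) (a : V) : R.dp (R.p a) ≤ R.dp a := by
  rcases R.hp a with h | h
  · rw [h]
  · omega

omit [Fintype V] in
lemma RF.le_dp_add (R : RF V) (a : V) : R.dp a ≤ R.dp (R.p a) + 1 := by
  rcases R.hp a with h | h
  · rw [h]; omega
  · omega

lemma mem_ch {R : RF V} {x y : V} : y ∈ ch R x ↔ R.p y = x ∧ y ≠ x := by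
  simp [ch]

lemma dp_of_mem_ch {R : RF V} {x y : V} (h : y ∈ ch R x) : R.dp y = R.dp x + 1 := by
  obtain ⟨h1, h2⟩ := mem_ch.mp h
  have := R.dp_of_ne (a := y) (by rw [h1]; exact fun h => h2 h.symm)
  rw [h1] at this
  exact this

/-- Pieces: subtrees at `x`, of depth at most `d`. -/
def IsPiece (R : RF V) (d : ℕ) (x : V) (S : Finset V) : Prop :=
  x ∈ S ∧ (∀ z ∈ S, ∃ i ≤ d, R.p^[i] z = x ∧ R.dp z = R.dp x + i) ∧ ∀ z ∈ S, z ≠ x → R.p z ∈ S

/-- Number of children inside `S`. -/
def cc (R : RF V) (S : Finset V) (z : V) : ℕ := (S.filter (fun y => R.p y = z ∧ y ≠ z)).card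

/-- The multiplicity of `S`: product of the factorials of the numbers of children. -/
def mu (R : RF V) (S : Finset V) : ℕ := ∏ z ∈ S, (cc R S z)!

/-- The weight of a piece. -/
def wt (R : RF V) (W : ℝ) (S : Finset V) : ℝ := (mu R S : ℝ) * (W⁻¹) ^ (S.card - 1)

lemma isPiece_singleton (R : RF V) (d : ℕ) (x : V) : IsPiece R d x {x} := by
  refine ⟨by simp, ?_, ?_⟩
  · intro z hz
    rw [Finset.mem_singleton] at hz
    subst hz
    exact ⟨0, Nat.zero_le _, rfl, rfl⟩
  · intro z hz hne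
    exact absurd (Finset.mem_singleton.mp hz) hne

lemma mu_singleton (R : RF V) (x : V) : mu R {x} = 1 := by
  simp only [mu, Finset.prod_singleton, cc]
  have : ({x} : Finset V).filter (fun y => R.p y = x ∧ y ≠ x) = ∅ := by
    ext y; simp only [Finset.mem_filter, Finset.mem_singleton, Finset.notMem_empty, iff_false]
    rintro ⟨rfl, _, h⟩; exact h rfl
  rw [this]; simp

lemma wt_singleton (R : RF V) (W : ℝ) (x : V) : wt R W {x} = 1 := by
  simp [wt, mu_singleton]

lemma pieces_nonempty (R : RF V) (d : ℕ) (x : V) :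
    ((univ : Finset (Finset V)).filter (IsPiece R d x)).Nonempty :=
  ⟨{x}, Finset.mem_filter.mpr ⟨Finset.mem_univ _, isPiece_singleton R d x⟩⟩

/-- The potential. -/
def A (R : RF V) (W : ℝ) (d : ℕ) (x : V) : ℝ :=
  ((univ : Finset (Finset V)).filter (IsPiece R d x)).sup' (pieces_nonempty R d x) (wt R W)

lemma wt_le_A {R : RF V} {W : ℝ} {d : ℕ} {x : V} {S : Finset V} (h : IsPiece R d x S) :
    wt R W S ≤ A R W d x :=
  Finset.le_sup' (wt R W) (Finset.mem_filter.mpr ⟨Finset.mem_univ _, h⟩)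

lemma A_attained (R : RF V) (W : ℝ) (d : ℕ) (x : V) :
    ∃ S, IsPiece R d x S ∧ A R W d x = wt R W S := by
  obtain ⟨S, hS, h⟩ := Finset.exists_mem_eq_sup' (pieces_nonempty R d x) (wt R W)
  exact ⟨S, (Finset.mem_filter.mp hS).2, h⟩

lemma one_le_A (R : RF V) (W : ℝ) (d : ℕ) (x : V) : 1 ≤ A R W d x := by
  have := wt_le_A (W := W) (isPiece_singleton R d x)
  rwa [wt_singleton] at this

lemma IsPiece.mono {R : RF V} {d d' : ℕ} {x : V} {S : Finset V} (h : IsPiece R d x S) (hd : d ≤ d') :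
    IsPiece R d' x S := by
  refine ⟨h.1, ?_, h.2.2⟩
  intro z hz
  obtain ⟨i, hi, h1, h2⟩ := h.2.1 z hz
  exact ⟨i, hi.trans hd, h1, h2⟩

lemma A_mono (R : RF V) (W : ℝ) {d d' : ℕ} (hd : d ≤ d') (x : V) : A R W d x ≤ A R W d' x := by
  obtain ⟨S, hS, h⟩ := A_attained R W d x
  rw [h]
  exact wt_le_A (hS.mono hd)

lemma A_zero (R : RF V) (W : ℝ) (x : V) : A R W 0 x = 1 := by
  obtain ⟨S, hS, h⟩ := A_attained R W 0 x
  have hSx : S = {x} := by
    ext z
    simp only [Finset.mem_singleton]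
    constructor
    · intro hz
      obtain ⟨i, hi, h1, _⟩ := hS.2.1 z hz
      obtain rfl : i = 0 := by omega
      simpa using h1
    · rintro rfl
      exact hS.1
  rw [h, hSx, wt_singleton]

/-! ### Elementary facts on pieces -/

omit [Fintype V] in
/-- Two descendants relations at the same depth coincide. -/
lemma eq_of_same_depth {R : RF V} {z x x' : V} {i i' : ℕ} (h1 : R.p^[i] z = x) (h2 : R.dp z = R.dp x + i)
    (h1' : R.p^[i'] z = x') (h2' : R.dp z = R.dp x' + i') (hd : R.dp x = R.dp x') : x = x' := by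
  obtain rfl : i = i' := by omega
  rw [← h1, h1']

omit [Fintype V] in
lemma iterate_succ_eq (R : RF V) (i : ℕ) (z : V) : R.p^[i + 1] z = R.p (R.p^[i] z) :=
  Function.iterate_succ_apply' _ _ _

omit [Fintype V] in
/-- Parents of the non-root vertices in a chain. -/
lemma chain_step {R : RF V} {z x : V} {i : ℕ} (h1 : R.p^[i] z = x) (h2 : R.dp z = R.dp x + i)
    (hne : z ≠ x) : ∃ j, i = j + 1 ∧ R.p z ≠ z ∧ R.p^[j] (R.p z) = x ∧ R.dp (R.p z) = R.dp x + j := by
  rcases i with _ | j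
  · exact absurd h1 hne
  · refine ⟨j, rfl, ?_, h1, ?_⟩
    · intro hfix
      have : ∀ k, R.p^[k] z = z := by
        intro k
        induction k with
        | zero => rfl
        | succ k ih => rw [Function.iterate_succ_apply', ih, hfix]
      exact hne ((this _).symm.trans h1)
    · have h3 : R.p z ≠ z := by
        intro hfix
        have : ∀ k, R.p^[k] z = z := by
          intro k
          induction k with
          | zero => rfl
          | succ k ih => rw [Function.iterate_succ_apply', ih, hfix]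
        exact hne ((this _).symm.trans h1)
      have := R.dp_of_ne h3
      omega

lemma piece_depth_ge {R : RF V} {d : ℕ} {x : V} {S : Finset V} (h : IsPiece R d x S) {z : V}
    (hz : z ∈ S) : R.dp x ≤ R.dp z := by
  obtain ⟨i, _, _, h2⟩ := h.2.1 z hz
  omega

lemma piece_ne_depth {R : RF V} {d : ℕ} {x : V} {S : Finset V} (h : IsPiece R d x S) {z : V}
    (hz : z ∈ S) (hne : z ≠ x) : R.dp x + 1 ≤ R.dp z ∧ R.p z ≠ z ∧ R.dp z = R.dp (R.p z) + 1 := by
  obtain ⟨i, _, h1, h2⟩ := h.2.1 z hz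
  obtain ⟨j, hj, h3, _, _⟩ := chain_step h1 h2 hne
  exact ⟨by omega, h3, R.dp_of_ne h3⟩

/-! ### Gluing pieces at a new root -/

section glue

variable {R : RF V} {d : ℕ} {x : V} {Y : Finset V} {S : V → Finset V}

lemma glue_disjoint (hY : Y ⊆ ch R x) (hS : ∀ y ∈ Y, IsPiece R d y (S y)) :
    (Y : Set V).PairwiseDisjoint S := by
  intro y hy y' hy' hne
  rw [Function.onFun, Finset.disjoint_left]
  intro z hz hz'
  obtain ⟨i, _, h1, h2⟩ := (hS y hy).2.1 z hz
  obtain ⟨i', _, h1', h2'⟩ := (hS y' hy').2.1 z hz'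
  have hdy := dp_of_mem_ch (hY hy)
  have hdy' := dp_of_mem_ch (hY hy')
  exact hne (eq_of_same_depth h1 h2 h1' h2' (by omega))

lemma glue_deep (hY : Y ⊆ ch R x) (hS : ∀ y ∈ Y, IsPiece R d y (S y)) {y z : V} (hy : y ∈ Y)
    (hz : z ∈ S y) : R.dp x + 1 ≤ R.dp z := by
  have := piece_depth_ge (hS y hy) hz
  have hdy := dp_of_mem_ch (hY hy)
  omega

lemma glue_x_notMem (hY : Y ⊆ ch R x) (hS : ∀ y ∈ Y, IsPiece R d y (S y)) {y : V} (hy : y ∈ Y) :
    x ∉ S y := fun hx => by
  have := glue_deep hY hS hy hx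
  omega

lemma glue_isPiece (hY : Y ⊆ ch R x) (hS : ∀ y ∈ Y, IsPiece R d y (S y)) :
    IsPiece R (d + 1) x (insert x (Y.biUnion S)) := by
  refine ⟨Finset.mem_insert_self _ _, ?_, ?_⟩
  · intro z hz
    rcases Finset.mem_insert.mp hz with rfl | hz
    · exact ⟨0, Nat.zero_le _, rfl, rfl⟩
    · obtain ⟨y, hy, hzy⟩ := Finset.mem_biUnion.mp hz
      obtain ⟨i, hi, h1, h2⟩ := (hS y hy).2.1 z hzy
      have hdy := dp_of_mem_ch (hY hy)
      refine ⟨i + 1, by omega, ?_, by omega⟩
      rw [iterate_succ_eq, h1]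
      exact (mem_ch.mp (hY hy)).1
  · intro z hz hne
    rcases Finset.mem_insert.mp hz with rfl | hz
    · exact absurd rfl hne
    · obtain ⟨y, hy, hzy⟩ := Finset.mem_biUnion.mp hz
      by_cases hzy' : z = y
      · subst hzy'
        rw [(mem_ch.mp (hY hy)).1]
        exact Finset.mem_insert_self _ _
      · exact Finset.mem_insert_of_mem
          (Finset.mem_biUnion.mpr ⟨y, hy, (hS y hy).2.2 z hzy hzy'⟩)

lemma glue_card (hY : Y ⊆ ch R x) (hS : ∀ y ∈ Y, IsPiece R d y (S y)) :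
    (insert x (Y.biUnion S)).card = 1 + ∑ y ∈ Y, (S y).card := by
  rw [Finset.card_insert_of_notMem, Finset.card_biUnion (glue_disjoint hY hS)]
  · ring
  · intro hx
    obtain ⟨y, hy, hxy⟩ := Finset.mem_biUnion.mp hx
    exact glue_x_notMem hY hS hy hxy

lemma glue_cc_root (hY : Y ⊆ ch R x) (hS : ∀ y ∈ Y, IsPiece R d y (S y)) :
    cc R (insert x (Y.biUnion S)) x = Y.card := by
  unfold cc
  congr 1
  ext w
  simp only [Finset.mem_filter, Finset.mem_insert, Finset.mem_biUnion]
  constructor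
  · rintro ⟨h | ⟨y, hy, hw⟩, h1, h2⟩
    · exact absurd h h2
    · by_cases hwy : w = y
      · rwa [hwy]
      · have := (hS y hy).2.2 w hw hwy
        rw [h1] at this
        exact absurd this (glue_x_notMem hY hS hy)
  · intro hw
    obtain ⟨h1, h2⟩ := mem_ch.mp (hY hw)
    exact ⟨Or.inr ⟨w, hw, (hS w hw).1⟩, h1, h2⟩

lemma glue_cc_child (hY : Y ⊆ ch R x) (hS : ∀ y ∈ Y, IsPiece R d y (S y)) {y z : V} (hy : y ∈ Y)
    (hz : z ∈ S y) : cc R (insert x (Y.biUnion S)) z = cc R (S y) z := by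
  unfold cc
  congr 1
  ext w
  simp only [Finset.mem_filter, Finset.mem_insert, Finset.mem_biUnion]
  have hdz := glue_deep hY hS hy hz
  constructor
  · rintro ⟨h | ⟨y', hy', hw⟩, h1, h2⟩
    · -- `w = x` is impossible
      subst h
      have hle := R.dp_le w
      rw [h1] at hle
      omega
    · refine ⟨?_, h1, h2⟩
      by_cases hyy' : y = y'
      · rw [hyy']; exact hw
      · exfalso
        by_cases hwy' : w = y'
        · subst hwy'
          have := (mem_ch.mp (hY hy')).1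
          rw [h1] at this
          subst this
          omega
        · have hmem := (hS y' hy').2.2 w hw hwy'
          rw [h1] at hmem
          exact (Finset.disjoint_left.mp (glue_disjoint hY hS hy hy' hyy')) hz hmem
  · rintro ⟨hw, h1, h2⟩
    exact ⟨Or.inr ⟨y, hy, hw⟩, h1, h2⟩

lemma glue_mu (hY : Y ⊆ ch R x) (hS : ∀ y ∈ Y, IsPiece R d y (S y)) :
    mu R (insert x (Y.biUnion S)) = (Y.card)! * ∏ y ∈ Y, mu R (S y) := by
  unfold mu
  rw [Finset.prod_insert, glue_cc_root hY hS, Finset.prod_biUnion (glue_disjoint hY hS)]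
  · congr 1
    apply Finset.prod_congr rfl
    intro y hy
    apply Finset.prod_congr rfl
    intro z hz
    rw [glue_cc_child hY hS hy hz]
  · intro hx
    obtain ⟨y, hy, hxy⟩ := Finset.mem_biUnion.mp hx
    exact glue_x_notMem hY hS hy hxy

end glue

/-- The structural inequality of the potential. -/
lemma A_succ_ge (R : RF V) (W : ℝ) (d : ℕ) (x : V) {Y : Finset V} (hY : Y ⊆ ch R x) :
    ((Y.card ! : ℕ) : ℝ) * (W⁻¹) ^ Y.card * ∏ y ∈ Y, A R W d y ≤ A R W (d + 1) x := by
  choose S hS hAS using A_attained R W d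
  have hS' : ∀ y ∈ Y, IsPiece R d y (S y) := fun y _ => hS y
  refine le_trans (le_of_eq ?_) (wt_le_A (glue_isPiece hY hS'))
  have hcard : (insert x (Y.biUnion S)).card - 1 = Y.card + ∑ y ∈ Y, ((S y).card - 1) := by
    rw [glue_card hY hS']
    have h1 : ∑ y ∈ Y, (S y).card = ∑ y ∈ Y, (1 + ((S y).card - 1)) := by
      apply Finset.sum_congr rfl
      intro y _
      have : 0 < (S y).card := Finset.card_pos.mpr ⟨y, (hS y).1⟩
      omega
    rw [h1, Finset.sum_add_distrib]
    simp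
  unfold wt
  rw [hcard, glue_mu hY hS', pow_add, ← Finset.prod_pow_eq_pow_sum]
  rw [Finset.prod_congr rfl (fun y _ => hAS y)]
  unfold wt
  rw [Finset.prod_mul_distrib]
  push_cast
  ring

/-- The truncated potential. -/
def U (R : RF V) (W : ℝ) (d : ℕ) (x : V) : ℝ := uu W (A R W d x)

lemma one_le_U (R : RF V) (W : ℝ) (d : ℕ) (x : V) : 1 ≤ U R W d x := one_le_uu _ _

lemma uu_mono (W : ℝ) {a b : ℝ} (h : a ≤ b) : uu W a ≤ uu W b := by
  unfold uu
  apply max_le_max le_rfl
  apply div_le_div_of_nonneg_right h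
  exact le_trans zero_le_one (le_max_left _ _)

lemma U_mono (R : RF V) (W : ℝ) {d d' : ℕ} (hd : d ≤ d') (x : V) : U R W d x ≤ U R W d' x :=
  uu_mono W (A_mono R W hd x)

lemma U_zero (R : RF V) (W : ℝ) (x : V) : U R W 0 x = 1 := by
  unfold U uu
  rw [A_zero]
  apply max_eq_left
  apply (div_le_one (lt_of_lt_of_le one_pos (le_max_left _ _))).mpr (le_max_left _ _)

lemma uu_le (W a : ℝ) (ha : 1 ≤ a) : uu W a ≤ 1 + a := by
  unfold uu
  apply max_le
  · linarith
  · have h1 : 1 ≤ max 1 W := le_max_left _ _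
    have h2 : a / max 1 W ≤ a := div_le_self (by linarith) h1
    linarith

lemma U_le (R : RF V) (W : ℝ) (d : ℕ) (x : V) : U R W d x ≤ 1 + A R W d x :=
  uu_le W _ (one_le_A R W d x)

variable {T : Type*} [Fintype T]

/-- The step lemma applied to the potential. -/
lemma step_U (R : RF V) {W : ℝ} (hW : 0 < W) (d : ℕ) (x : V) (K : Finset T) (x₀ : V) :
    ∑ ψ ∈ Inj K (ch R x) x₀, ∏ b ∈ K, U R W d (ψ b) ≤ (16 * W) ^ K.card * U R W (d + 1) x :=
  step hW (ch R x) (A R W d) (fun y _ => one_le_A R W d y) (A R W (d + 1) x)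
    (fun _ hY => A_succ_ge R W d x hY) K x₀

end

end Vale.Agent.P064
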