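import Mathlib

/-!
# The one-step inequality for the potential
-/

open Finset
open scoped Classical Nat

namespace Vale.Agent.P064

noncomputable section

variable {T V : Type*} [Fintype T] [Fintype V]

/-- Maps sending `K` injectively into `D`, and everything else to `x₀`. -/
def Inj (K : Finset T) (D : Finset V) (x₀ : V) : Finset (T → V) :=
  (Fintype.piFinset (fun b => if b ∈ K then D else {x₀})).filter (fun ψ => Set.InjOn ψ K)

/-- The truncated potential. -/
def uu (W a : ℝ) : ℝ := max 1 (a / max 1 W)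

lemma one_le_uu (W a : ℝ) : 1 ≤ uu W a := le_max_left _ _

lemma card_pi (K : Finset T) (D : Finset V) (x₀ : V) :
    (Fintype.piFinset (fun b => if b ∈ K then D else ({x₀} : Finset V))).card = D.card ^ K.card := by
  rw [Fintype.card_piFinset]
  have : ∀ b : T, ((if b ∈ K then D else ({x₀} : Finset V))).card = if b ∈ K then D.card else 1 := by
    intro b; split_ifs <;> simp
  simp only [this]
  rw [Finset.prod_ite_mem, Finset.univ_inter, Finset.prod_const]

lemma card_inj_le (K : Finset T) (D : Finset V) (x₀ : V) :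
    (Inj K D x₀).card ≤ D.card ^ K.card := by
  rw [← card_pi K D x₀]
  exact Finset.card_filter_le _ _

lemma mem_D_of_mem_pi {K : Finset T} {D : Finset V} {x₀ : V} {ψ : T → V}
    (h : ψ ∈ Fintype.piFinset (fun b => if b ∈ K then D else ({x₀} : Finset V))) {b : T}
    (hb : b ∈ K) : ψ b ∈ D := by
  have := Fintype.mem_piFinset.mp h b
  simpa [hb] using this

/-- count of maps in the box with one prescribed coordinate in a subset. -/
lemma card_pi_filter (K : Finset T) (D R : Finset V) (hR : R ⊆ D) (x₀ : V) {b₀ : T} (hb₀ : b₀ ∈ K) :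
    ((Fintype.piFinset (fun b => if b ∈ K then D else ({x₀} : Finset V))).filter
      (fun ψ => ψ b₀ ∈ R)).card = R.card * D.card ^ (K.card - 1) := by
  have hset : (Fintype.piFinset (fun b => if b ∈ K then D else ({x₀} : Finset V))).filter
      (fun ψ => ψ b₀ ∈ R) =
      Fintype.piFinset (fun b => if b = b₀ then R else if b ∈ K then D else ({x₀} : Finset V)) := by
    ext ψ
    simp only [Finset.mem_filter, Fintype.mem_piFinset]
    constructor
    · rintro ⟨h, h0⟩ b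
      by_cases hb : b = b₀
      · subst hb; simpa using h0
      · simpa [hb] using h b
    · intro h
      constructor
      · intro b
        by_cases hb : b = b₀
        · subst hb
          have := h b
          simp only [if_true] at this
          simp only [hb₀, if_true]
          exact hR this
        · simpa [hb] using h b
      · simpa using h b₀
  rw [hset, Fintype.card_piFinset]
  have : ∀ b : T, ((if b = b₀ then R else if b ∈ K then D else ({x₀} : Finset V))).card =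
      (if b = b₀ then R.card else 1) * (if b ∈ K.erase b₀ then D.card else 1) := by
    intro b
    by_cases hb : b = b₀
    · subst hb; simp
    · by_cases hbK : b ∈ K <;> simp [hb, hbK]
  simp only [this]
  rw [Finset.prod_mul_distrib, Finset.prod_ite_eq' , Finset.prod_ite_mem, Finset.univ_inter,
    Finset.prod_const, Finset.card_erase_of_mem hb₀]
  simp

/-- Monotonicity of finite products of factors at least one. -/
lemma prod_le_of_subset {α : Type*} {s t : Finset α} {u : α → ℝ} (hst : s ⊆ t)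
    (hu : ∀ y ∈ t, 1 ≤ u y) : ∏ y ∈ s, u y ≤ ∏ y ∈ t, u y := by
  rw [← Finset.prod_sdiff hst]
  have h1 : 1 ≤ ∏ y ∈ t \ s, u y := by
    have : (∏ y ∈ t \ s, (1 : ℝ)) ≤ ∏ y ∈ t \ s, u y :=
      Finset.prod_le_prod (fun _ _ => zero_le_one) (fun y hy => hu y (Finset.mem_sdiff.mp hy).1)
    simpa using this
  have h2 : 0 ≤ ∏ y ∈ s, u y :=
    Finset.prod_nonneg (fun y hy => by linarith [hu y (hst hy)])
  nlinarith

/-- The elementary bound on a single term. -/
lemma prod_le_of_inj {K : Finset T} {D : Finset V} {ψ : T → V} (hψ : Set.InjOn ψ K)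
    (hD : ∀ b ∈ K, ψ b ∈ D) {u : V → ℝ} (hu : ∀ y ∈ D, 1 ≤ u y) :
    ∏ b ∈ K, u (ψ b) ≤ ∏ y ∈ D, u y := by
  rw [← Finset.prod_image (s := K) (g := ψ) (f := u) (fun a ha b hb h => hψ ha hb h)]
  apply prod_le_of_subset _ hu
  intro y hy
  obtain ⟨b, hb, rfl⟩ := Finset.mem_image.mp hy
  exact hD b hb

lemma sum_inj_le_two {K : Finset T} {D R : Finset V} (hR : R ⊆ D) (x₀ : V) {u : V → ℝ}
    (hu : ∀ y ∈ D, 1 ≤ u y) (hu1 : ∀ y ∈ D, y ∉ R → u y = 1) :
    ∑ ψ ∈ Inj K D x₀, ∏ b ∈ K, u (ψ b) ≤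
      (D.card : ℝ) ^ K.card + K.card * (R.card * (D.card : ℝ) ^ (K.card - 1) * ∏ y ∈ D, u y) := by
  set P : ℝ := ∏ y ∈ D, u y with hP
  have hP1 : 1 ≤ P := by
    have : (∏ y ∈ D, (1 : ℝ)) ≤ ∏ y ∈ D, u y :=
      Finset.prod_le_prod (fun _ _ => zero_le_one) (fun y hy => hu y hy)
    simpa using this
  set B := Fintype.piFinset (fun b => if b ∈ K then D else ({x₀} : Finset V)) with hB
  have hterm : ∀ ψ ∈ B, Set.InjOn ψ K → ∏ b ∈ K, u (ψ b) ≤
      1 + ∑ b ∈ K, (if ψ b ∈ R then P else 0) := by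
    intro ψ hψ hinj
    have hD : ∀ b ∈ K, ψ b ∈ D := fun b hb => mem_D_of_mem_pi hψ hb
    by_cases hex : ∃ b ∈ K, ψ b ∈ R
    · obtain ⟨b₀, hb₀, hb₀R⟩ := hex
      have h1 : ∏ b ∈ K, u (ψ b) ≤ P := prod_le_of_inj hinj hD hu
      have h2 : P ≤ ∑ b ∈ K, (if ψ b ∈ R then P else 0) := by
        have := Finset.single_le_sum (f := fun b => if ψ b ∈ R then P else 0)
          (s := K) (fun b _ => by split_ifs <;> linarith) hb₀
        simpa [hb₀R] using this
      linarith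
    · push Not at hex
      have h1 : ∏ b ∈ K, u (ψ b) = 1 :=
        Finset.prod_eq_one (fun b hb => hu1 _ (hD b hb) (hex b hb))
      have h2 : 0 ≤ ∑ b ∈ K, (if ψ b ∈ R then P else 0) :=
        Finset.sum_nonneg (fun b _ => by split_ifs <;> linarith)
      rw [h1]; linarith
  calc ∑ ψ ∈ Inj K D x₀, ∏ b ∈ K, u (ψ b)
      ≤ ∑ ψ ∈ Inj K D x₀, (1 + ∑ b ∈ K, (if ψ b ∈ R then P else 0)) := by
        apply Finset.sum_le_sum
        intro ψ hψ
        obtain ⟨h1, h2⟩ := Finset.mem_filter.mp hψ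
        exact hterm ψ h1 h2
    _ ≤ ∑ ψ ∈ B, (1 + ∑ b ∈ K, (if ψ b ∈ R then P else 0)) := by
        apply Finset.sum_le_sum_of_subset_of_nonneg (Finset.filter_subset _ _)
        intro ψ _ _
        have : 0 ≤ ∑ b ∈ K, (if ψ b ∈ R then P else 0) :=
          Finset.sum_nonneg (fun b _ => by split_ifs <;> linarith)
        linarith
    _ = (D.card : ℝ) ^ K.card + K.card * (R.card * (D.card : ℝ) ^ (K.card - 1) * P) := by
        rw [Finset.sum_add_distrib, Finset.sum_const, Finset.sum_comm]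
        have h1 : B.card = D.card ^ K.card := card_pi K D x₀
        have h2 : ∀ b ∈ K, ∑ ψ ∈ B, (if ψ b ∈ R then P else 0) =
            R.card * (D.card : ℝ) ^ (K.card - 1) * P := by
          intro b hb
          rw [← Finset.sum_filter, Finset.sum_const, nsmul_eq_mul,
            card_pi_filter K D R hR x₀ hb]
          push_cast; ring
        rw [Finset.sum_congr rfl h2, Finset.sum_const, h1]
        simp

lemma factorial_ge (d : ℕ) : ((d : ℝ) / 3) ^ d ≤ (d ! : ℝ) := by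
  have h := Real.pow_div_factorial_le_exp (x := d) (Nat.cast_nonneg d) d
  have hpos : (0 : ℝ) < (d ! : ℝ) := by exact_mod_cast Nat.factorial_pos d
  have hexp : Real.exp (d : ℝ) ≤ 3 ^ d := by
    have : Real.exp (d : ℝ) = Real.exp 1 ^ d := by
      rw [← Real.exp_nat_mul]; simp
    rw [this]
    exact pow_le_pow_left₀ (Real.exp_pos _).le (by
      have := Real.exp_one_lt_d9; linarith) d
  have h2 : (d : ℝ) ^ d ≤ 3 ^ d * (d ! : ℝ) := by
    have := (div_le_iff₀ hpos).mp (h.trans hexp)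
    linarith
  rw [div_pow]
  rw [div_le_iff₀ (by positivity)]
  linarith

/-- The heavy children. -/
def heavy (W : ℝ) (A : V → ℝ) (D : Finset V) : Finset V := D.filter (fun y => max 1 W < A y)

lemma heavy_subset (W : ℝ) (A : V → ℝ) (D : Finset V) : heavy W A D ⊆ D := Finset.filter_subset _ _

lemma light_eq {W : ℝ} {A : V → ℝ} {D : Finset V} {y : V} (hy : y ∈ D) (hyR : y ∉ heavy W A D) :
    uu W (A y) = 1 := by
  have hΛ0 : 0 < max 1 W := lt_of_lt_of_le one_pos (le_max_left _ _)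
  have : A y ≤ max 1 W := by
    by_contra hcon
    exact hyR (Finset.mem_filter.mpr ⟨hy, not_le.mp hcon⟩)
  have h2 : A y / max 1 W ≤ 1 := (div_le_one hΛ0).mpr this
  simp only [uu]
  exact max_eq_left h2

lemma heavy_eq {W : ℝ} {A : V → ℝ} {D : Finset V} {y : V} (hy : y ∈ heavy W A D) :
    A y = max 1 W * uu W (A y) := by
  have hΛ0 : 0 < max 1 W := lt_of_lt_of_le one_pos (le_max_left _ _)
  have h1 : max 1 W < A y := (Finset.mem_filter.mp hy).2
  have h2 : 1 ≤ A y / max 1 W := (one_le_div hΛ0).mpr h1.le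
  simp only [uu]
  rw [max_eq_right h2]
  field_simp

lemma one_le_prod_uu (W : ℝ) (A : V → ℝ) (D : Finset V) : 1 ≤ ∏ y ∈ D, uu W (A y) := by
  have : (∏ y ∈ D, (1 : ℝ)) ≤ ∏ y ∈ D, uu W (A y) :=
    Finset.prod_le_prod (fun _ _ => zero_le_one) (fun y _ => one_le_uu _ _)
  simpa using this

lemma prod_uu_eq_heavy (W : ℝ) (A : V → ℝ) (D : Finset V) :
    ∏ y ∈ heavy W A D, uu W (A y) = ∏ y ∈ D, uu W (A y) :=
  Finset.prod_subset (heavy_subset W A D) (fun _ hy hyR => light_eq hy hyR)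

/-- The lower bound on `M`, for every `Y` between the heavy children and all children. -/
lemma key_bound {W : ℝ} (hW : 0 < W) {D : Finset V} {A : V → ℝ} (hA : ∀ y ∈ D, 1 ≤ A y) {M : ℝ}
    (hM : ∀ Y ⊆ D, ((Y.card ! : ℕ) : ℝ) * (W⁻¹) ^ Y.card * ∏ y ∈ Y, A y ≤ M)
    {Y : Finset V} (hRY : heavy W A D ⊆ Y) (hYD : Y ⊆ D) :
    ((Y.card ! : ℕ) : ℝ) * (W⁻¹) ^ Y.card *
      ((max 1 W) ^ (heavy W A D).card * ∏ y ∈ D, uu W (A y)) ≤ M := by
  refine le_trans ?_ (hM Y hYD)
  apply mul_le_mul_of_nonneg_left _ (by positivity)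
  have h1 : ∏ y ∈ heavy W A D, A y = (max 1 W) ^ (heavy W A D).card * ∏ y ∈ D, uu W (A y) := by
    rw [Finset.prod_congr rfl (fun y hy => heavy_eq hy), Finset.prod_mul_distrib,
      Finset.prod_const, prod_uu_eq_heavy]
  rw [← h1]
  exact prod_le_of_subset hRY (fun y hy => hA y (hYD hy))

lemma M_nonneg {W : ℝ} (hW : 0 < W) {D : Finset V} {A : V → ℝ} {M : ℝ}
    (hM : ∀ Y ⊆ D, ((Y.card ! : ℕ) : ℝ) * (W⁻¹) ^ Y.card * ∏ y ∈ Y, A y ≤ M) : 0 ≤ M := by
  have := hM ∅ (Finset.empty_subset _)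
  simp at this
  linarith

/-- Arithmetic for the heavy term when there are few children. -/
lemma few_heavy_arith {W Λ P M : ℝ} (hW : 0 < W) (hΛW : W ≤ Λ) (hΛ0 : 0 < Λ) (hP : 0 ≤ P) {r : ℕ}
    (hr : r ≠ 0) (h1 : ((r ! : ℕ) : ℝ) * (W⁻¹) ^ r * (Λ ^ r * P) ≤ M) :
    (r : ℝ) * P ≤ W * (M / Λ) := by
  have h2 : (r : ℝ) ≤ ((r ! : ℕ) : ℝ) := by
    exact_mod_cast Nat.self_le_factorial r
  have h3 : W ^ r * Λ ≤ W * Λ ^ r := by
    obtain ⟨r', rfl⟩ : ∃ r', r = r' + 1 := ⟨r - 1, by omega⟩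
    rw [pow_succ, pow_succ]
    have : W ^ r' ≤ Λ ^ r' := pow_le_pow_left₀ hW.le hΛW _
    have h4 : 0 ≤ W * Λ := by positivity
    calc W ^ r' * W * Λ = W ^ r' * (W * Λ) := by ring
      _ ≤ Λ ^ r' * (W * Λ) := mul_le_mul_of_nonneg_right this h4
      _ = W * (Λ ^ r' * Λ) := by ring
  have h4 : 1 ≤ (W⁻¹) ^ r * Λ ^ r * (W * Λ⁻¹) := by
    have hWr : 0 < W ^ r := by positivity
    rw [inv_pow]
    have : (W ^ r)⁻¹ * Λ ^ r * (W * Λ⁻¹) = (W * Λ ^ r) / (W ^ r * Λ) := by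
      field_simp
    rw [this]
    exact (one_le_div (by positivity)).mpr h3
  have h5 : (r : ℝ) * P ≤ ((r ! : ℕ) : ℝ) * ((W⁻¹) ^ r * Λ ^ r * (W * Λ⁻¹)) * P := by
    apply mul_le_mul_of_nonneg_right _ hP
    have h0 : (0 : ℝ) ≤ ((r ! : ℕ) : ℝ) := Nat.cast_nonneg _
    calc (r : ℝ) ≤ ((r ! : ℕ) : ℝ) * 1 := by rw [mul_one]; exact h2
      _ ≤ _ := mul_le_mul_of_nonneg_left h4 h0
  refine h5.trans ?_
  have h6 : ((r ! : ℕ) : ℝ) * ((W⁻¹) ^ r * Λ ^ r * (W * Λ⁻¹)) * P =
      (((r ! : ℕ) : ℝ) * (W⁻¹) ^ r * (Λ ^ r * P)) * (W * Λ⁻¹) := by ring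
  rw [h6, div_eq_mul_inv]
  have h7 : 0 ≤ W * Λ⁻¹ := by positivity
  calc _ ≤ M * (W * Λ⁻¹) := mul_le_mul_of_nonneg_right h1 h7
    _ = W * (M * Λ⁻¹) := by ring

lemma few_pow_arith {W : ℝ} (hW : 0 < W) {k : ℕ} (hk : k ≠ 0) :
    (k : ℝ) * (8 * W) ^ (k - 1) ≤ (16 * W) ^ (k - 1) := by
  obtain ⟨k', rfl⟩ : ∃ k', k = k' + 1 := ⟨k - 1, by omega⟩
  simp only [Nat.add_sub_cancel]
  have h1 : ((k' + 1 : ℕ) : ℝ) ≤ 2 ^ k' := by
    have : k' + 1 ≤ 2 ^ k' := Nat.lt_two_pow_self (n := k')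
    exact_mod_cast this
  have h2 : (16 * W) ^ k' = (8 * W) ^ k' * 2 ^ k' := by
    rw [← mul_pow]; ring_nf
  rw [h2, mul_comm]
  exact mul_le_mul_of_nonneg_left h1 (by positivity)

/-- The case of few children. -/
lemma step_few {W : ℝ} (hW : 0 < W) (D : Finset V) (A : V → ℝ) (hA : ∀ y ∈ D, 1 ≤ A y) (M : ℝ)
    (hM : ∀ Y ⊆ D, ((Y.card ! : ℕ) : ℝ) * (W⁻¹) ^ Y.card * ∏ y ∈ Y, A y ≤ M)
    (K : Finset T) (x₀ : V) (hk : K.card ≠ 0) (hd : (D.card : ℝ) ≤ 8 * W) :
    ∑ ψ ∈ Inj K D x₀, ∏ b ∈ K, uu W (A (ψ b)) ≤ (16 * W) ^ K.card * max 1 (M / max 1 W) := by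
  have hΛ1 : 1 ≤ max 1 W := le_max_left _ _
  have hΛW : W ≤ max 1 W := le_max_right _ _
  have hΛ0 : 0 < max 1 W := by linarith
  set Mx := max 1 (M / max 1 W) with hMx
  have hMx1 : 1 ≤ Mx := le_max_left _ _
  have hMx2 : M / max 1 W ≤ Mx := le_max_right _ _
  set P : ℝ := ∏ y ∈ D, uu W (A y) with hP
  have hP1 : 1 ≤ P := one_le_prod_uu W A D
  have h0 := sum_inj_le_two (K := K) (heavy_subset W A D) x₀ (u := fun y => uu W (A y))
    (fun y _ => one_le_uu _ _) (fun y hy hyR => light_eq hy hyR)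
  refine h0.trans ?_
  have hk1 : 1 ≤ K.card := Nat.one_le_iff_ne_zero.mpr hk
  have hpow : (16 * W) ^ K.card = (8 * W) ^ K.card * 2 ^ K.card := by
    rw [← mul_pow]; ring_nf
  have h2k : (2 : ℝ) ≤ 2 ^ K.card := by
    calc (2 : ℝ) = 2 ^ 1 := by norm_num
      _ ≤ 2 ^ K.card := pow_le_pow_right₀ (by norm_num) hk1
  have h8k : (0 : ℝ) < (8 * W) ^ K.card := by positivity
  have hfirst : (D.card : ℝ) ^ K.card ≤ (16 * W) ^ K.card * (1 / 2) := by
    have h1 : (D.card : ℝ) ^ K.card ≤ (8 * W) ^ K.card :=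
      pow_le_pow_left₀ (Nat.cast_nonneg _) hd _
    rw [hpow]
    have h3 : (8 * W) ^ K.card * 1 ≤ (8 * W) ^ K.card * (2 ^ K.card * (1 / 2)) :=
      mul_le_mul_of_nonneg_left (by linarith) h8k.le
    calc _ ≤ (8 * W) ^ K.card * 1 := by rw [mul_one]; exact h1
      _ ≤ _ := h3
      _ = _ := by ring
  have hpos : 0 < (16 * W) ^ K.card := by positivity
  have hgoal : (16 * W) ^ K.card * (1 / 2) + (16 * W) ^ K.card * (Mx / 16) ≤
      (16 * W) ^ K.card * Mx := by
    rw [← mul_add]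
    apply mul_le_mul_of_nonneg_left _ hpos.le
    linarith
  have hMx16 : 0 ≤ (16 * W) ^ K.card * (Mx / 16) := by positivity
  set r := (heavy W A D).card with hr
  by_cases hr0 : r = 0
  · rw [hr0]
    simp only [Nat.cast_zero, zero_mul, mul_zero, add_zero]
    linarith
  · have hk2 := few_pow_arith hW hk
    have hdk : (D.card : ℝ) ^ (K.card - 1) ≤ (8 * W) ^ (K.card - 1) :=
      pow_le_pow_left₀ (Nat.cast_nonneg _) hd _
    have hRM : (r : ℝ) * P ≤ W * (M / max 1 W) :=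
      few_heavy_arith hW hΛW hΛ0 (by linarith) hr0
        (key_bound hW hA hM (Finset.Subset.refl _) (heavy_subset W A D))
    have hsecond : (K.card : ℝ) * (r * (D.card : ℝ) ^ (K.card - 1) * P) ≤
        (16 * W) ^ K.card * (Mx / 16) := by
      have h1 : (K.card : ℝ) * (r * (D.card : ℝ) ^ (K.card - 1) * P) ≤
          (K.card * (8 * W) ^ (K.card - 1)) * (r * P) := by
        have hnn : 0 ≤ (K.card : ℝ) * (r * P) := by positivity
        calc (K.card : ℝ) * (r * (D.card : ℝ) ^ (K.card - 1) * P)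
            = (D.card : ℝ) ^ (K.card - 1) * ((K.card : ℝ) * (r * P)) := by ring
          _ ≤ (8 * W) ^ (K.card - 1) * ((K.card : ℝ) * (r * P)) :=
            mul_le_mul_of_nonneg_right hdk hnn
          _ = _ := by ring
      have h2 : (K.card * (8 * W) ^ (K.card - 1)) * ((r : ℝ) * P) ≤
          (16 * W) ^ (K.card - 1) * (W * Mx) := by
        apply mul_le_mul hk2 (hRM.trans _) (by positivity) (by positivity)
        exact mul_le_mul_of_nonneg_left hMx2 hW.le
      have h3 : (16 * W) ^ (K.card - 1) * (W * Mx) = (16 * W) ^ K.card * (Mx / 16) := by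
        obtain ⟨k', hk'⟩ : ∃ k', K.card = k' + 1 := ⟨K.card - 1, by omega⟩
        rw [hk']
        simp only [Nat.add_sub_cancel]
        rw [pow_succ]
        ring
      linarith
    linarith

/-- Final arithmetic of the case of many children. -/
lemma many_final_arith {a P E Λ Lr M : ℝ} (ha : 0 ≤ a) (hP : 0 ≤ P) (hE : 1 ≤ E) (hΛ0 : 0 < Λ)
    (hLr : (Lr = 1 ∧ Λ ≤ E) ∨ Λ ≤ Lr) (h6 : a * E * (Lr * P) ≤ M) : a * P ≤ M / Λ := by
  rw [le_div_iff₀ hΛ0]
  refine le_trans ?_ h6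
  have hX : 0 ≤ a * P := mul_nonneg ha hP
  rcases hLr with ⟨rfl, h⟩ | h
  · calc a * P * Λ ≤ a * P * E := mul_le_mul_of_nonneg_left h hX
      _ = _ := by ring
  · have hE1 : Λ ≤ E * Lr := by
      have : 0 < Lr := by linarith
      nlinarith
    calc a * P * Λ ≤ a * P * (E * Lr) := mul_le_mul_of_nonneg_left hE1 hX
      _ = _ := by ring

/-- The case of many children. -/
lemma step_many {W : ℝ} (hW : 0 < W) (D : Finset V) (A : V → ℝ) (hA : ∀ y ∈ D, 1 ≤ A y) (M : ℝ)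
    (hM : ∀ Y ⊆ D, ((Y.card ! : ℕ) : ℝ) * (W⁻¹) ^ Y.card * ∏ y ∈ Y, A y ≤ M)
    (K : Finset T) (x₀ : V) (hd : 8 * W < (D.card : ℝ)) :
    ∑ ψ ∈ Inj K D x₀, ∏ b ∈ K, uu W (A (ψ b)) ≤ (16 * W) ^ K.card * max 1 (M / max 1 W) := by
  have hΛ1 : 1 ≤ max 1 W := le_max_left _ _
  have hΛ0 : 0 < max 1 W := by linarith
  set Mx := max 1 (M / max 1 W) with hMx
  have hMx1 : 1 ≤ Mx := le_max_left _ _
  have hMx2 : M / max 1 W ≤ Mx := le_max_right _ _
  set P : ℝ := ∏ y ∈ D, uu W (A y) with hP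
  have hP1 : 1 ≤ P := one_le_prod_uu W A D
  by_cases hkd : D.card < K.card
  · have hempty : Inj K D x₀ = ∅ := by
      apply Finset.filter_eq_empty_iff.mpr
      intro ψ hψ hinj
      have hmaps : Set.MapsTo ψ K D := fun b hb => mem_D_of_mem_pi hψ hb
      have := Finset.card_le_card_of_injOn ψ hmaps hinj
      omega
    rw [hempty, Finset.sum_empty]
    positivity
  push Not at hkd
  have hd1 : (1 : ℝ) ≤ D.card / (8 * W) := by
    rw [le_div_iff₀ (by positivity)]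
    linarith
  have hsum : ∑ ψ ∈ Inj K D x₀, ∏ b ∈ K, uu W (A (ψ b)) ≤ (D.card : ℝ) ^ K.card * P := by
    calc ∑ ψ ∈ Inj K D x₀, ∏ b ∈ K, uu W (A (ψ b))
        ≤ ∑ ψ ∈ Inj K D x₀, P := by
          apply Finset.sum_le_sum
          intro ψ hψ
          obtain ⟨h1, h2⟩ := Finset.mem_filter.mp hψ
          exact prod_le_of_inj h2 (fun b hb => mem_D_of_mem_pi h1 hb) (fun y _ => one_le_uu _ _)
      _ = ((Inj K D x₀).card : ℝ) * P := by rw [Finset.sum_const, nsmul_eq_mul]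
      _ ≤ (D.card : ℝ) ^ K.card * P := by
          apply mul_le_mul_of_nonneg_right _ (by linarith)
          exact_mod_cast card_inj_le K D x₀
  refine hsum.trans ?_
  set dd : ℝ := (D.card : ℝ) with hdd
  have hdpos : 0 < dd := by
    have : 0 < 8 * W := by positivity
    linarith
  have h1 : dd ^ K.card ≤ (16 * W) ^ K.card * (dd / (8 * W)) ^ D.card := by
    have h2 : dd ^ K.card = (16 * W) ^ K.card * (dd / (16 * W)) ^ K.card := by
      rw [← mul_pow]; congr 1; field_simp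
    rw [h2]
    apply mul_le_mul_of_nonneg_left _ (by positivity)
    calc (dd / (16 * W)) ^ K.card ≤ (dd / (8 * W)) ^ K.card := by
          apply pow_le_pow_left₀ (by positivity)
          apply div_le_div_of_nonneg_left hdpos.le (by positivity)
          linarith
      _ ≤ (dd / (8 * W)) ^ D.card := pow_le_pow_right₀ hd1 hkd
  have h3 : (dd / (8 * W)) ^ D.card * (8 / 3) ^ D.card ≤ ((D.card ! : ℕ) : ℝ) * (W⁻¹) ^ D.card := by
    have h4 := factorial_ge D.card
    have h5 : (dd / (8 * W)) ^ D.card * (8 / 3) ^ D.card = (dd / 3) ^ D.card * (W⁻¹) ^ D.card := by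
      rw [← mul_pow, ← mul_pow]
      congr 1
      field_simp
    rw [h5]
    exact mul_le_mul_of_nonneg_right h4 (by positivity)
  have hM2 := key_bound hW hA hM (heavy_subset W A D) (Finset.Subset.refl _)
  have h6 : (dd / (8 * W)) ^ D.card * (8 / 3) ^ D.card * ((max 1 W) ^ (heavy W A D).card * P) ≤ M := by
    refine le_trans ?_ hM2
    exact mul_le_mul_of_nonneg_right h3 (by positivity)
  have h83 : (1 : ℝ) ≤ (8 / 3) ^ D.card := one_le_pow₀ (by norm_num)
  have hfinal : (dd / (8 * W)) ^ D.card * P ≤ Mx := by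
    refine le_trans (many_final_arith (by positivity) (by linarith) h83 hΛ0 ?_ h6) hMx2
    by_cases hr : (heavy W A D).card = 0
    · left
      refine ⟨by rw [hr, pow_zero], ?_⟩
      apply max_le h83
      have h8 : (D.card : ℝ) + 1 ≤ 2 ^ D.card := by
        exact_mod_cast Nat.lt_two_pow_self (n := D.card)
      have h9 : (2 : ℝ) ^ D.card ≤ (8 / 3) ^ D.card :=
        pow_le_pow_left₀ (by norm_num) (by norm_num) _
      have : W ≤ D.card := by linarith
      linarith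
    · right
      have hr1 : 1 ≤ (heavy W A D).card := Nat.one_le_iff_ne_zero.mpr hr
      calc max 1 W = (max 1 W) ^ 1 := (pow_one _).symm
        _ ≤ (max 1 W) ^ (heavy W A D).card := pow_le_pow_right₀ hΛ1 hr1
  calc dd ^ K.card * P ≤ (16 * W) ^ K.card * (dd / (8 * W)) ^ D.card * P :=
        mul_le_mul_of_nonneg_right h1 (by linarith)
    _ = (16 * W) ^ K.card * ((dd / (8 * W)) ^ D.card * P) := by ring
    _ ≤ (16 * W) ^ K.card * Mx := mul_le_mul_of_nonneg_left hfinal (by positivity)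

/-- **The step lemma.** -/
theorem step {W : ℝ} (hW : 0 < W) (D : Finset V) (A : V → ℝ) (hA : ∀ y ∈ D, 1 ≤ A y) (M : ℝ)
    (hM : ∀ Y ⊆ D, ((Y.card ! : ℕ) : ℝ) * (W⁻¹) ^ Y.card * ∏ y ∈ Y, A y ≤ M)
    (K : Finset T) (x₀ : V) :
    ∑ ψ ∈ Inj K D x₀, ∏ b ∈ K, uu W (A (ψ b)) ≤ (16 * W) ^ K.card * max 1 (M / max 1 W) := by
  by_cases hk : K.card = 0
  · have hK : K = ∅ := Finset.card_eq_zero.mp hk
    rw [hk, pow_zero, one_mul]
    have h1 : ∑ ψ ∈ Inj K D x₀, ∏ b ∈ K, uu W (A (ψ b)) ≤ ((Inj K D x₀).card : ℝ) := by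
      subst hK
      simp
    have h2 : ((Inj K D x₀).card : ℝ) ≤ 1 := by
      have := card_inj_le K D x₀
      rw [hk, pow_zero] at this
      exact_mod_cast this
    have h3 : (1 : ℝ) ≤ max 1 (M / max 1 W) := le_max_left _ _
    linarith
  by_cases hd : (D.card : ℝ) ≤ 8 * W
  · exact step_few hW D A hA M hM K x₀ hk hd
  · exact step_many hW D A hA M hM K x₀ (not_le.mp hd)

end

end Vale.Agent.P064
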