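import Vale.Agent.P064.Pattern

/-!
# Isolated vertices and the falling factorial
-/

open Finset
open scoped Classical Nat

namespace Vale.Agent.P064

noncomputable section

section arith

lemma pow_le_pow_mul_choose (j : ℕ) : ∀ n, j ≤ n → n ^ j ≤ j ^ j * n.choose j := by
  induction j with
  | zero => intro n _; simp
  | succ j ih =>
    intro n' hn'
    obtain ⟨n, rfl⟩ : ∃ n, n' = n + 1 := ⟨n' - 1, by omega⟩
    have hjn : j ≤ n := by omega
    have h1 := ih n hjn
    have h2 : (n + 1) * n.choose j = (n + 1).choose (j + 1) * (j + 1) := Nat.add_one_mul_choose_eq n j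
    have h3 : (n + 1) ^ j ≤ (j + 1) ^ j * n.choose j := by
      rcases Nat.eq_zero_or_pos j with rfl | hj
      · simp
      · have hjpos : 0 < j ^ j := Nat.pow_pos hj
        apply Nat.le_of_mul_le_mul_left _ hjpos
        calc j ^ j * (n + 1) ^ j = (j * (n + 1)) ^ j := (mul_pow _ _ _).symm
          _ ≤ ((j + 1) * n) ^ j := Nat.pow_le_pow_left (by nlinarith) _
          _ = (j + 1) ^ j * n ^ j := mul_pow _ _ _
          _ ≤ (j + 1) ^ j * (j ^ j * n.choose j) := Nat.mul_le_mul_left _ h1
          _ = j ^ j * ((j + 1) ^ j * n.choose j) := by ring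
    calc (n + 1) ^ (j + 1) = (n + 1) ^ j * (n + 1) := pow_succ _ _
      _ ≤ (j + 1) ^ j * n.choose j * (n + 1) := Nat.mul_le_mul_right _ h3
      _ = (j + 1) ^ j * ((n + 1) * n.choose j) := by ring
      _ = (j + 1) ^ j * ((n + 1).choose (j + 1) * (j + 1)) := by rw [h2]
      _ = (j + 1) ^ (j + 1) * (n + 1).choose (j + 1) := by rw [pow_succ]; ring

lemma pow_le_three_descFactorial {j n : ℕ} (hj : j ≤ n) :
    (n : ℝ) ^ j ≤ 3 ^ j * (n.descFactorial j : ℝ) := by
  have h1 : (n ^ j : ℕ) ≤ j ^ j * n.choose j := pow_le_pow_mul_choose j n hj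
  have h2 : ((n : ℝ)) ^ j ≤ (j : ℝ) ^ j * (n.choose j : ℝ) := by exact_mod_cast h1
  have h3 := factorial_ge j
  have h4 : (j : ℝ) ^ j ≤ 3 ^ j * (j ! : ℝ) := by
    have h5 : (3 : ℝ) ^ j * ((j : ℝ) / 3) ^ j = (j : ℝ) ^ j := by
      rw [← mul_pow]; congr 1; ring
    rw [← h5]
    exact mul_le_mul_of_nonneg_left h3 (by positivity)
  have h6 : (n.descFactorial j : ℝ) = (j ! : ℝ) * (n.choose j : ℝ) := by
    rw [Nat.descFactorial_eq_factorial_mul_choose]; push_cast; ring
  rw [h6]
  calc (n : ℝ) ^ j ≤ (j : ℝ) ^ j * (n.choose j : ℝ) := h2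
    _ ≤ (3 ^ j * (j ! : ℝ)) * (n.choose j : ℝ) :=
      mul_le_mul_of_nonneg_right h4 (Nat.cast_nonneg _)
    _ = _ := by ring

lemma descFactorial_add (n j m : ℕ) :
    n.descFactorial (j + m) = n.descFactorial j * (n - j).descFactorial m := by
  induction m with
  | zero => simp
  | succ m ih =>
    rw [← add_assoc, Nat.descFactorial_succ, ih, Nat.descFactorial_succ]
    have : n - (j + m) = n - j - m := by omega
    rw [this]
    ring

end arith

section copies

variable {V W : Type*} [Fintype V] [Fintype W]

/-- The number of labelled copies in a complete graph. -/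
lemma labelled_top (n : ℕ) (F : SimpleGraph W) :
    (⊤ : SimpleGraph (Fin n)).labelledCopyCount F = n.descFactorial (Fintype.card W) := by
  rw [labelled_eq_natCard]
  have e : SimpleGraph.Copy F (⊤ : SimpleGraph (Fin n)) ≃ (W ↪ Fin n) :=
    { toFun := fun f => f.toEmbedding
      invFun := fun g => ⟨⟨g, fun {a b} h => by
        simp only [SimpleGraph.top_adj]
        exact fun h2 => h.ne (g.injective h2)⟩, g.injective⟩
      left_inv := fun f => by ext a; rfl
      right_inv := fun g => by ext a; rfl }
  rw [Nat.card_congr e, Nat.card_eq_fintype_card, Fintype.card_embedding_eq, Fintype.card_fin]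

/-- Copies in a smaller host graph. -/
lemma labelled_le_top (H : SimpleGraph V) (F : SimpleGraph W) {n : ℕ}
    (hV : Fintype.card V ≤ n) :
    H.labelledCopyCount F ≤ (⊤ : SimpleGraph (Fin n)).labelledCopyCount F := by
  rw [labelled_top, labelled_eq_natCard]
  have hle : Nat.card (SimpleGraph.Copy F H) ≤ Nat.card (W ↪ V) :=
    Nat.card_le_card_of_injective (fun f : SimpleGraph.Copy F H => f.toEmbedding) (by
      intro f f' h
      ext a
      exact DFunLike.congr_fun h a)
  have h2 : Nat.card (W ↪ V) = (Fintype.card V).descFactorial (Fintype.card W) := by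
    rw [Nat.card_eq_fintype_card, Fintype.card_embedding_eq]
  rw [h2] at hle
  exact hle.trans (Nat.descFactorial_le _ hV)

/-- Removing the isolated vertices. -/
lemma labelled_le_support (H : SimpleGraph V) (F : SimpleGraph W) :
    H.labelledCopyCount F ≤ H.labelledCopyCount (F.induce F.support) *
      (Fintype.card V - Fintype.card F.support).descFactorial
        (Fintype.card W - Fintype.card F.support) := by
  classical
  set J : Set W := F.support with hJ
  set F' : SimpleGraph J := F.induce J with hF'
  let _ : Fintype (SimpleGraph.Copy F H) := Fintype.ofFinite _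
  let _ : Fintype (SimpleGraph.Copy F' H) := Fintype.ofFinite _
  let res : SimpleGraph.Copy F H → SimpleGraph.Copy F' H :=
    fun f => f.comp (SimpleGraph.Copy.induce F J)
  have hres : ∀ (f : SimpleGraph.Copy F H) (a : J), res f a = f a := fun _ _ => rfl
  set D := (Fintype.card V - Fintype.card J).descFactorial (Fintype.card W - Fintype.card J) with hD
  have hfib : ∀ g : SimpleGraph.Copy F' H, (univ.filter (fun f => res f = g)).card ≤ D := by
    intro g
    rw [← Fintype.card_subtype]
    have hT : Fintype.card {x // x ∉ Set.range g} = Fintype.card V - Fintype.card J := by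
      rw [Fintype.card_subtype_compl]
      congr 1
      exact Set.card_range_of_injective g.injective
    have hI : Fintype.card {a // a ∉ J} = Fintype.card W - Fintype.card J := by
      rw [Fintype.card_subtype_compl]
    rw [hD, ← hT, ← hI, ← Fintype.card_embedding_eq]
    let E : {f // res f = g} → ({a // a ∉ J} ↪ {x // x ∉ Set.range g}) := fun f =>
      ⟨fun a => ⟨f.1 a.1, by
        rintro ⟨b, hb⟩
        have h1 : g b = f.1 b := (DFunLike.congr_fun f.2 b).symm
        rw [h1] at hb
        have h2 : (b : W) = a.1 := f.1.injective hb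
        exact a.2 (h2 ▸ b.2)⟩, by
        intro a a' h
        have := congrArg Subtype.val h
        exact Subtype.ext (f.1.injective this)⟩
    apply Fintype.card_le_of_injective E
    rintro ⟨f, hf⟩ ⟨f', hf'⟩ hEE
    apply Subtype.ext
    ext a
    by_cases ha : a ∈ J
    · have h1 : f a = g ⟨a, ha⟩ := by rw [← hf]; rfl
      have h2 : f' a = g ⟨a, ha⟩ := by rw [← hf']; rfl
      rw [h1, h2]
    · have := DFunLike.congr_fun hEE ⟨a, ha⟩
      exact congrArg Subtype.val this
  rw [labelled_eq_natCard, labelled_eq_natCard, Nat.card_eq_fintype_card, Nat.card_eq_fintype_card,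
    ← Finset.card_univ, ← Finset.card_univ]
  rw [Finset.card_eq_sum_card_fiberwise (f := res) (t := univ) (fun _ _ => Finset.mem_coe.mpr
    (Finset.mem_univ _))]
  calc _ ≤ ∑ _g ∈ (univ : Finset (SimpleGraph.Copy F' H)), D :=
        Finset.sum_le_sum (fun g _ => hfib g)
    _ = _ := by rw [Finset.sum_const, smul_eq_mul]

lemma card_support_le (F : SimpleGraph W) : Fintype.card F.support ≤ 2 * F.edgeSet.ncard := by
  classical
  have h1 := F.sum_degrees_eq_twice_card_edges
  have h2 : F.edgeSet.ncard = F.edgeFinset.card := by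
    rw [← Set.ncard_coe_finset, SimpleGraph.coe_edgeFinset]
  rw [h2, ← h1, Fintype.card_subtype]
  calc (univ.filter (fun a => a ∈ F.support)).card
      = ∑ a ∈ univ.filter (fun a => a ∈ F.support), 1 := Finset.card_eq_sum_ones _
    _ ≤ ∑ a ∈ univ.filter (fun a => a ∈ F.support), F.degree a := by
        apply Finset.sum_le_sum
        intro a ha
        have ha' : a ∈ F.support := (Finset.mem_filter.mp ha).2
        obtain ⟨b, hb⟩ := ha'
        exact Finset.card_pos.mpr ⟨b, by simpa using hb⟩
    _ ≤ ∑ a, F.degree a :=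
        Finset.sum_le_sum_of_subset_of_nonneg (Finset.filter_subset _ _)
          (fun _ _ _ => Nat.zero_le _)

lemma edges_support (F : SimpleGraph W) :
    (F.induce F.support).edgeSet.ncard = F.edgeSet.ncard := by
  have hset : F.edgeSet = (Sym2.map (Subtype.val : F.support → W)) '' (F.induce F.support).edgeSet := by
    ext e
    induction e using Sym2.ind with
    | _ a b =>
      simp only [SimpleGraph.mem_edgeSet, Set.mem_image]
      constructor
      · intro hab
        refine ⟨s(⟨a, ⟨b, hab⟩⟩, ⟨b, ⟨a, hab.symm⟩⟩), ?_, rfl⟩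
        exact hab
      · rintro ⟨e', he', hmap⟩
        induction e' using Sym2.ind with
        | _ a' b' =>
          have h1 : F.Adj a' b' := he'
          simp only [Sym2.map_mk] at hmap
          rcases Sym2.eq_iff.mp hmap with ⟨h2, h3⟩ | ⟨h2, h3⟩
          · rw [← h2, ← h3]; exact h1
          · rw [← h2, ← h3]; exact h1.symm
  rw [hset, Set.InjOn.ncard_image]
  exact (Sym2.map.injective Subtype.val_injective).injOn

end copies

end

end Vale.Agent.P064
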